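import Vale.Agent.P254.H876.Prof

/-!
P254: facts (F1)-(F4) about the sharp profile, used in the maximum principle.
-/

namespace Vale.Agent.P254.H876

open Real Set Filter Topology MeasureTheory

theorem JJ_le {a : ℝ} (ha : 0 < a) : JJ a ≤ 11 := by
  have h0 := HH_pos a ha
  have hU := U_le a ha
  unfold JJ
  nlinarith

/-- (F1) `(1 - x) |p'| ≤ C p` -/
theorem sharp_F1 : ∀ x ∈ Ioo (0 : ℝ) 1, (1 - x) * |sharp.p1 x| ≤ 4 * sharp.p x := by
  intro x hx
  have ha := al_pos hx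
  show (1 - x) * |pa1 (al x)| ≤ 4 * pp (al x)
  rw [one_sub_eq hx]
  obtain ⟨a, hae⟩ : ∃ a, a = al x := ⟨_, rfl⟩
  rw [← hae] at ha ⊢
  have hp := pp_pos ha
  have hJ := JJ_pos a ha
  have hJ2 := JJ_le ha
  have e : |pa1 a| = (1 + a) * (JJ a + 1) / (3 * a) * pp a := by
    unfold pa1
    rw [neg_mul, abs_neg, abs_of_pos (by positivity)]
  rw [e]
  have e2 : a / (1 + a) * ((1 + a) * (JJ a + 1) / (3 * a) * pp a) = (JJ a + 1) / 3 * pp a := by
    field_simp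
  rw [e2]
  exact mul_le_mul_of_nonneg_right (by linarith) hp.le

/-- (F2) `p³ ≥ c (1 - x)²` -/
theorem sharp_F2 : ∀ x ∈ Ioo (0 : ℝ) 1, 1 / 2 * (1 - x) ^ 2 ≤ sharp.p x ^ 3 := by
  intro x hx
  have ha := al_pos hx
  rw [sharp_cube hx, one_sub_eq hx]
  obtain ⟨a, hae⟩ : ∃ a, a = al x := ⟨_, rfl⟩
  rw [← hae] at ha ⊢
  have h0 := HH_pos a ha
  have h2 : HH a ≤ 2 := by linarith [HH_lt_two a ha]
  unfold kk
  rw [div_pow, mul_div_assoc', div_le_div_iff₀ (by positivity) (by positivity)]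
  have h3 : (a + HH a) * (a + HH a + 2) ≤ (a + 2) * (a + 2 + 2) := by gcongr
  have h4 : 1 / 2 * a ^ 2 * ((a + HH a) * (a + HH a + 2)) ≤
      1 / 2 * a ^ 2 * ((a + 2) * (a + 2 + 2)) :=
    mul_le_mul_of_nonneg_left h3 (by positivity)
  refine h4.trans ?_
  nlinarith [pow_pos ha 2, pow_pos ha 3, pow_pos ha 4]

theorem tendsto_al : Tendsto al (𝓝[>] 0) atTop := by
  have h := tendsto_atTop_add_const_right (𝓝[>] (0 : ℝ)) (-1) (tendsto_inv_nhdsGT_zero (𝕜 := ℝ))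
  refine h.congr fun x => ?_
  unfold al
  rw [one_div]
  ring

/-- (F3) `p x ^ 3 ≤ 4 (1 - (2 - δ) x)³` near zero -/
theorem sharp_F3_cube {δ : ℝ} (hδ : 0 < δ) :
    ∀ᶠ x in 𝓝[>] (0 : ℝ), sharp.p x ^ 3 ≤ 4 * (1 - (2 - δ) * x) ^ 3 ∧ 0 ≤ 1 - (2 - δ) * x := by
  have h1 := tendsto_al.eventually (eventually_ge_atTop (max 10 (100 / δ)))
  filter_upwards [h1, Ioo_mem_nhdsGT (show (0 : ℝ) < 1 by norm_num)] with x hx1 hx
  have ha := al_pos hx
  have hxe := x_eq hx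
  show pp (al x) ^ 3 ≤ _ ∧ _
  obtain ⟨a, hae⟩ : ∃ a, a = al x := ⟨_, rfl⟩
  rw [← hae] at ha hxe hx1 ⊢
  have h0 := HH_pos a ha
  have hU := U_le a ha
  have ha10 : 10 ≤ a := (le_max_left _ _).trans hx1
  have had : 100 ≤ a * δ := by
    have := (le_max_right _ _).trans hx1
    rwa [div_le_iff₀ hδ] at this
  -- `y = (2 - δ) x`
  have hy1 : (2 - δ) * x ≤ 1 := by
    have hx10 : x ≤ 1 / 11 := by
      rw [hxe]
      exact one_div_le_one_div_of_le (by norm_num) (by linarith)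
    have := hx.1
    nlinarith
  have hB : 1 - 3 * ((2 - δ) * x) ≤ (1 - (2 - δ) * x) ^ 3 := by
    have : (1 - (2 - δ) * x) ^ 3 - (1 - 3 * ((2 - δ) * x)) =
      ((2 - δ) * x) ^ 2 * (3 - (2 - δ) * x) := by ring
    have h3 : 0 ≤ ((2 - δ) * x) ^ 2 * (3 - (2 - δ) * x) :=
      mul_nonneg (sq_nonneg _) (by linarith)
    linarith
  have hk : kk a ≤ 4 * (1 - (2 - δ) * x) ^ 3 := by
    refine le_trans ?_ (mul_le_mul_of_nonneg_left hB (by norm_num))
    unfold kk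
    rw [div_le_iff₀ (by positivity), hxe]
    have h5 : (1 + a) * (1 - 3 * ((2 - δ) * (1 / (1 + a)))) = a - 5 + 3 * δ := by
      field_simp
      ring
    have h6 : a ^ 2 + 6 * a - 20 ≤ (a + HH a) * (a + HH a + 2) := by nlinarith
    have h7 : a ^ 2 * (1 + a) ≤ (a - 5 + 3 * δ) * ((a + HH a) * (a + HH a + 2)) := by
      have h8 : (a - 5 + 3 * δ) * (a ^ 2 + 6 * a - 20) ≤
          (a - 5 + 3 * δ) * ((a + HH a) * (a + HH a + 2)) :=
        mul_le_mul_of_nonneg_left h6 (by linarith)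
      refine le_trans ?_ h8
      nlinarith [mul_nonneg ha.le (sub_nonneg.2 had)]
    have h9 : (1 + a) * (4 * a ^ 2) ≤
        (1 + a) * (4 * (1 - 3 * ((2 - δ) * (1 / (1 + a)))) * ((a + HH a) * (a + HH a + 2))) := by
      have : (1 + a) * (4 * (1 - 3 * ((2 - δ) * (1 / (1 + a)))) *
          ((a + HH a) * (a + HH a + 2))) =
          4 * (((1 + a) * (1 - 3 * ((2 - δ) * (1 / (1 + a))))) *
            ((a + HH a) * (a + HH a + 2))) := by ring
      rw [this, h5]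
      linarith
    exact le_of_mul_le_mul_left h9 (by linarith)
  have hz : 0 ≤ 1 - (2 - δ) * x := by linarith
  exact ⟨by rw [pp_cube ha]; exact hk, hz⟩

/-- (F3) `p x ≤ 4^{1/3} (1 - (2 - δ) x)` near zero -/
theorem sharp_F3 {δ : ℝ} (hδ : 0 < δ) :
    ∀ᶠ x in 𝓝[>] (0 : ℝ), sharp.p x ≤ (4 : ℝ) ^ (1 / 3 : ℝ) * (1 - (2 - δ) * x) := by
  filter_upwards [sharp_F3_cube hδ] with x hx
  obtain ⟨h1, hz⟩ := hx
  refine le_of_pow_le_pow_left₀ (three_ne_zero) (by positivity) ?_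
  rw [mul_pow, ← Real.rpow_natCast ((4 : ℝ) ^ (1 / 3 : ℝ)) 3,
    ← Real.rpow_mul (by norm_num)]
  norm_num
  exact h1

/-- hypothesis `hp` of `smallP` -/
theorem sharp_hp (δ : ℝ) (hδ : 0 < δ) : ∃ x0 : ℝ, 0 < x0 ∧ ∀ x, 0 < x → x ≤ x0 →
    sharp.p x ^ 3 ≤ 4 * (1 - (2 - δ) * x) ^ 3 := by
  obtain ⟨u, hu, h⟩ := mem_nhdsGT_iff_exists_Ioc_subset.1 (sharp_F3_cube hδ)
  exact ⟨u, hu, fun x hx hxu => (h ⟨hx, hxu⟩).1⟩

/-- (F4) `w x ≥ (1 - δ) x` near zero -/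
theorem sharp_F4 {δ : ℝ} (hδ : 0 < δ) :
    ∀ᶠ x in 𝓝[>] (0 : ℝ), (1 - δ) * x ≤ sharpW.w x := by
  have h1 := tendsto_al.eventually (eventually_ge_atTop (5 / δ))
  filter_upwards [h1, Ioo_mem_nhdsGT (show (0 : ℝ) < 1 by norm_num)] with x hx1 hx
  have ha := al_pos hx
  have hxe := x_eq hx
  show _ ≤ wa (al x)
  obtain ⟨a, hae⟩ : ∃ a, a = al x := ⟨_, rfl⟩
  rw [← hae] at ha hxe hx1 ⊢
  rw [hxe]
  have hd : ∀ t, a ≤ t → HasDerivAt (fun t => wa t - (1 - δ) * (1 / (1 + t)))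
      (-((2 * eta t - t) / 2 / (1 + t) ^ 2) + (1 - δ) * (1 / (1 + t) ^ 2)) t := by
    intro t ht
    have ht0 : 0 < t := lt_of_lt_of_le ha ht
    have h2 : HasDerivAt (fun t : ℝ => 1 / (1 + t)) (-(1 / (1 + t) ^ 2)) t := by
      have h := ((hasDerivAt_id t).const_add 1).inv (by simp only [id_eq]; positivity)
      simp only [one_div]
      refine h.congr_deriv ?_
      simp only [id_eq]
      field_simp
    refine ((hasDerivAt_wa ht0).sub (h2.const_mul (1 - δ))).congr_deriv ?_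
    ring
  have hanti : AntitoneOn (fun t => wa t - (1 - δ) * (1 / (1 + t))) (Ici a) := by
    refine antitoneOn_of_deriv_nonpos (convex_Ici a) ?_ ?_ ?_
    · intro t ht
      exact (hd t ht).continuousAt.continuousWithinAt
    · intro t ht
      rw [interior_Ici] at ht
      exact (hd t (le_of_lt ht)).differentiableAt.differentiableWithinAt
    · intro t ht
      rw [interior_Ici] at ht
      have hta : a < t := ht
      rw [(hd t hta.le).deriv]
      have ht0 : 0 < t := lt_trans ha hta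
      have hU := U_le t ht0
      have h3 : 5 ≤ t * δ := by
        rw [div_le_iff₀ hδ] at hx1
        nlinarith
      have h4 : 0 ≤ (2 * eta t - t) / 2 - (1 - δ) := by
        have h5 : 0 ≤ t * ((2 * eta t - t) / 2 - (1 - δ)) := by
          unfold HH at hU
          nlinarith
        exact nonneg_of_mul_nonneg_right h5 ht0
      have e : -((2 * eta t - t) / 2 / (1 + t) ^ 2) + (1 - δ) * (1 / (1 + t) ^ 2) =
        -(((2 * eta t - t) / 2 - (1 - δ)) / (1 + t) ^ 2) := by ring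
      rw [e]
      have : 0 ≤ ((2 * eta t - t) / 2 - (1 - δ)) / (1 + t) ^ 2 := by positivity
      linarith
  have hlim : Tendsto (fun t => wa t - (1 - δ) * (1 / (1 + t))) atTop (𝓝 0) := by
    have := tendsto_wa_top.sub (tendsto_inv_one_add.const_mul (1 - δ))
    rw [mul_zero, sub_zero] at this
    exact this
  have h6 : 0 ≤ wa a - (1 - δ) * (1 / (1 + a)) := by
    refine le_of_tendsto hlim ?_
    filter_upwards [eventually_ge_atTop a] with t ht
    exact hanti (show a ∈ Ici a from le_refl a) ht ht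
  linarith

/-- hypothesis `hw` of `smallZ` -/
theorem sharp_hw (δ : ℝ) (hδ : 0 < δ) : ∃ x0 : ℝ, 0 < x0 ∧ ∀ x, 0 < x → x ≤ x0 →
    (1 - δ) * x ≤ sharpW.w x := by
  obtain ⟨u, hu, h⟩ := mem_nhdsGT_iff_exists_Ioc_subset.1 (sharp_F4 hδ)
  exact ⟨u, hu, fun x hx hxu => h ⟨hx, hxu⟩⟩

end Vale.Agent.P254.H876
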