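import Vale.Agent.P254.H876.Gauss

/-!
P254, sharp profile: the function `eta` on `(0, ∞)`, `a = 1 / b - 1`, `eta = b / (mu² - b)`,
`eta' = eta (eta + 1) (2 eta - a) / (a (a + 1))`, and the function `wa = w (1 / (1 + a))`.
-/

namespace Vale.Agent.P254.H876

open Real Set Filter Topology MeasureTheory

/-- `log (v / (1 - v))` -/
noncomputable def ell (c : ℝ) : ℝ := Real.log (v c / (1 - v c))

theorem one_sub_v_pos (c : ℝ) : 0 < 1 - v c := by linarith [v_lt_one c]

theorem continuous_v : Continuous v :=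
  continuous_iff_continuousAt.2 fun c => (hasDerivAt_v c).continuousAt

theorem continuous_ell : Continuous ell := by
  unfold ell
  refine Continuous.log (continuous_v.div (continuous_const.sub continuous_v)
    fun c => (one_sub_v_pos c).ne') fun c => (div_pos (v_pos c) (one_sub_v_pos c)).ne'

theorem strictMono_ell : StrictMono ell := by
  intro x y hxy
  unfold ell
  refine Real.log_lt_log (div_pos (v_pos x) (one_sub_v_pos x)) ?_
  have h := v_strictMono hxy
  exact div_lt_div₀ h (by linarith) (v_pos y).le (one_sub_v_pos y)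

theorem tendsto_ell_bot : Tendsto ell atBot atBot := by
  unfold ell
  refine Real.tendsto_log_nhdsGT_zero.comp ?_
  refine tendsto_nhdsWithin_iff.2 ⟨?_, Eventually.of_forall fun c =>
    div_pos (v_pos c) (one_sub_v_pos c)⟩
  have h := tendsto_v_bot.div (tendsto_v_bot.const_sub 1) (by norm_num)
  rw [zero_div] at h
  exact h

theorem tendsto_ell_top : Tendsto ell atTop atTop := by
  unfold ell
  refine Real.tendsto_log_atTop.comp ?_
  have h1 : Tendsto (fun c => 1 - v c) atTop (𝓝[>] 0) := by
    refine tendsto_nhdsWithin_iff.2 ⟨?_, Eventually.of_forall fun c => one_sub_v_pos c⟩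
    simpa using tendsto_v_top.const_sub 1
  have h2 := tendsto_v_top.pos_mul_atTop one_pos (tendsto_inv_nhdsGT_zero.comp h1)
  refine h2.congr fun c => ?_
  simp [div_eq_mul_inv]

/-- `ell` as an order isomorphism -/
noncomputable def ellIso : ℝ ≃o ℝ :=
  StrictMono.orderIsoOfSurjective ell strictMono_ell
    (continuous_ell.surjective tendsto_ell_top tendsto_ell_bot)

theorem ellIso_apply (c : ℝ) : ellIso c = ell c := rfl

/-- the tilt `c` as a function of `a = 1 / v - 1` -/
noncomputable def cc (a : ℝ) : ℝ := ellIso.symm (-Real.log a)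

theorem ell_cc (a : ℝ) : ell (cc a) = -Real.log a := by
  rw [← ellIso_apply]
  exact ellIso.apply_symm_apply _

theorem v_cc {a : ℝ} (ha : 0 < a) : v (cc a) = 1 / (1 + a) := by
  have h := ell_cc a
  unfold ell at h
  rw [← Real.log_inv] at h
  have h1 := Real.log_injOn_pos (div_pos (v_pos (cc a)) (one_sub_v_pos (cc a)))
    (inv_pos.2 ha) h
  have h2 := one_sub_v_pos (cc a)
  field_simp at h1 ⊢
  linarith

theorem continuousOn_cc : ContinuousOn cc (Ioi 0) := by
  unfold cc
  refine ellIso.symm.continuous.comp_continuousOn ?_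
  exact (Real.continuousOn_log.mono fun x hx => ne_of_gt hx).neg

theorem hasDerivAt_cc {a : ℝ} (ha : 0 < a) :
    HasDerivAt cc (-(v (cc a) ^ 2 / (lam (cc a) * (m (cc a) ^ 2 - v (cc a))))) a := by
  -- `cc` is the inverse of `c ↦ 1 / v c - 1`
  have hv := v_pos (cc a)
  have hl := lam_pos (cc a)
  have hq := qv_pos (cc a)
  have h1 : HasDerivAt (fun c => (v c)⁻¹ - 1)
      (-(lam (cc a) * (m (cc a) ^ 2 - v (cc a))) / v (cc a) ^ 2) (cc a) :=
    ((hasDerivAt_v (cc a)).inv hv.ne').sub_const 1
  have h2 := HasDerivAt.of_local_left_inverse (f := fun c => (v c)⁻¹ - 1) (g := cc) (a := a)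
    (f' := -(lam (cc a) * (m (cc a) ^ 2 - v (cc a))) / v (cc a) ^ 2)
    (continuousOn_cc.continuousAt (Ioi_mem_nhds ha)) h1 ?_ ?_
  · refine h2.congr_deriv ?_
    field_simp
  · have : 0 < lam (cc a) * (m (cc a) ^ 2 - v (cc a)) := mul_pos hl hq
    intro h
    rw [div_eq_zero_iff] at h
    rcases h with h | h
    · linarith
    · exact absurd h (pow_pos hv 2).ne'
  · filter_upwards [Ioi_mem_nhds ha] with x hx
    have hx0 : (0 : ℝ) < x := hx
    rw [v_cc hx0]
    field_simp
    ring

/-- `eta = b / (mu² - b)` as a function of `c` -/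
noncomputable def etc (c : ℝ) : ℝ := v c / (m c ^ 2 - v c)

theorem etc_pos (c : ℝ) : 0 < etc c := div_pos (v_pos c) (qv_pos c)

theorem hasDerivAt_etc (c : ℝ) :
    HasDerivAt etc (lam c + lam c * etc c - 2 * m c * etc c ^ 2) c := by
  have hq := (qv_pos c).ne'
  have h := (hasDerivAt_v c).div (((hasDerivAt_m c).pow 2).sub (hasDerivAt_v c)) hq
  refine h.congr_deriv ?_
  simp only [Nat.cast_ofNat, Nat.reduceSub, pow_one, Pi.sub_apply, Pi.pow_apply]
  unfold etc
  field_simp
  ring

/-- `eta` as a function of `a = 1 / b - 1` -/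
noncomputable def eta (a : ℝ) : ℝ := etc (cc a)

theorem eta_pos (a : ℝ) : 0 < eta a := etc_pos _

theorem hasDerivAt_eta {a : ℝ} (ha : 0 < a) :
    HasDerivAt eta (eta a * (eta a + 1) * (2 * eta a - a) / (a * (a + 1))) a := by
  have h := (hasDerivAt_etc (cc a)).comp a (hasDerivAt_cc ha)
  refine h.congr_deriv ?_
  have hv := v_pos (cc a)
  have hl := lam_pos (cc a)
  have hq := qv_pos (cc a)
  have hm := m_pos (cc a)
  have hva := v_cc ha
  -- `lam * m = 1 - v = a / (1 + a)`
  have e1 : lam (cc a) * m (cc a) = a / (1 + a) := by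
    have : v (cc a) = 1 - lam (cc a) * m (cc a) := rfl
    rw [hva] at this
    field_simp at this ⊢
    linarith
  have e2 : eta a * (m (cc a) ^ 2 - v (cc a)) = v (cc a) := by
    unfold eta etc
    field_simp
  have het := eta_pos a
  -- `m² = v (eta + 1) / eta`
  have e3 : m (cc a) ^ 2 - v (cc a) = v (cc a) / eta a := by
    field_simp
    linarith
  have e4 : m (cc a) ^ 2 = v (cc a) * (eta a + 1) / eta a := by
    field_simp
    field_simp at e3
    linarith
  show (lam (cc a) + lam (cc a) * eta a - 2 * m (cc a) * eta a ^ 2) *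
    (-(v (cc a) ^ 2 / (lam (cc a) * (m (cc a) ^ 2 - v (cc a))))) = _
  rw [e3]
  -- `m / lam = m² / (lam m)`
  have e5 : m (cc a) / lam (cc a) = (eta a + 1) / (a * eta a) := by
    have e6 : m (cc a) / lam (cc a) = m (cc a) ^ 2 / (lam (cc a) * m (cc a)) := by
      field_simp
    rw [e6, e1, e4, hva]
    field_simp
  have e7 : (lam (cc a) + lam (cc a) * eta a - 2 * m (cc a) * eta a ^ 2) *
      (-(v (cc a) ^ 2 / (lam (cc a) * (v (cc a) / eta a)))) =
      -(v (cc a) * eta a) * (1 + eta a - 2 * (m (cc a) / lam (cc a)) * eta a ^ 2) := by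
    field_simp
  rw [e7, e5, hva]
  field_simp
  ring

/-- lower bound -/
theorem eta_ge {a : ℝ} (ha : 0 < a) : -1 ≤ 2 * eta a - a := by
  have h := qv_le (cc a)
  have hv := v_pos (cc a)
  have hq := qv_pos (cc a)
  have hva := v_cc ha
  have het := eta_pos a
  have e2 : eta a * (m (cc a) ^ 2 - v (cc a)) = v (cc a) := by
    unfold eta etc
    field_simp
  have e3 : m (cc a) ^ 2 - v (cc a) = v (cc a) / eta a := by
    field_simp
    linarith
  have e4 : m (cc a) ^ 2 = v (cc a) * (eta a + 1) / eta a := by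
    field_simp
    field_simp at e3
    linarith
  rw [e3, e4] at h
  have h2 : v (cc a) / eta a * (2 * v (cc a) * (eta a + 1) - 1) ≥ 0 := by
    have : v (cc a) / eta a * (2 * v (cc a) * (eta a + 1) - 1)
      = 2 * (v (cc a) * (eta a + 1) / eta a) * v (cc a) - v (cc a) / eta a := by
      field_simp
    rw [this]
    linarith
  have h3 : 0 ≤ 2 * v (cc a) * (eta a + 1) - 1 :=
    nonneg_of_mul_nonneg_right h2 (div_pos hv het)
  rw [hva] at h3
  have h4 : 1 ≤ 2 * (1 / (1 + a)) * (eta a + 1) := by linarith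
  have h5 : 1 * (1 + a) ≤ 2 * (1 / (1 + a)) * (eta a + 1) * (1 + a) :=
    mul_le_mul_of_nonneg_right h4 (by linarith)
  have h6 : 2 * (1 / (1 + a)) * (eta a + 1) * (1 + a) = 2 * (eta a + 1) := by
    field_simp
  linarith

theorem cc_antitone {x y : ℝ} (hx : 0 < x) (hxy : x ≤ y) : cc y ≤ cc x := by
  unfold cc
  refine ellIso.symm.monotone ?_
  have := Real.log_le_log hx hxy
  linarith

theorem tendsto_cc_top : Tendsto cc atTop atBot := by
  unfold cc
  exact ellIso.symm.tendsto_atBot.comp (tendsto_neg_atTop_atBot.comp Real.tendsto_log_atTop)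

theorem tendsto_cc_zero : Tendsto cc (𝓝[>] 0) atTop := by
  unfold cc
  exact ellIso.symm.tendsto_atTop.comp
    (tendsto_neg_atBot_atTop.comp Real.tendsto_log_nhdsGT_zero)

/-- upper bound near infinity -/
theorem eta_le : ∀ᶠ a in atTop, eta a ≤ 6 * (a + 1) := by
  filter_upwards [tendsto_cc_top.eventually (eventually_le_atBot (-1)),
    eventually_gt_atTop 0] with a hc ha
  have h := qv_ge hc
  have hv := v_pos (cc a)
  have hq := qv_pos (cc a)
  have hm := m_pos (cc a)
  have hva := v_cc ha
  have h1 : eta a ≤ v (cc a) / (m (cc a) ^ 4 / 6) := by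
    unfold eta etc
    exact div_le_div_of_nonneg_left hv.le (by positivity) h
  have h2 : v (cc a) / (m (cc a) ^ 4 / 6) ≤ m (cc a) ^ 2 / (m (cc a) ^ 4 / 6) :=
    div_le_div_of_nonneg_right (by linarith) (by positivity)
  have h3 : m (cc a) ^ 2 / (m (cc a) ^ 4 / 6) = 6 / m (cc a) ^ 2 := by
    field_simp
  have h4 : 6 / m (cc a) ^ 2 ≤ 6 / v (cc a) :=
    div_le_div_of_nonneg_left (by norm_num) hv (by linarith)
  have h5 : 6 / v (cc a) = 6 * (a + 1) := by
    rw [hva]
    field_simp
    ring
  linarith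

/-! ### the function `w` -/

/-- `w = -log lam - q/2 - v/2 - (log v)/2`, `q = m²` -/
noncomputable def wc (c : ℝ) : ℝ :=
  -Real.log (lam c) - m c ^ 2 / 2 - v c / 2 - Real.log (v c) / 2

/-- `w (1 / (1 + a))` -/
noncomputable def wa (a : ℝ) : ℝ := wc (cc a)

theorem hasDerivAt_wc (c : ℝ) :
    HasDerivAt wc (m c - m c * v c - lam c * (m c ^ 2 - v c) / 2
      - lam c * (m c ^ 2 - v c) / v c / 2) c := by
  have h1 := (hasDerivAt_lam c).log (lam_pos c).ne'
  have h2 := ((hasDerivAt_m c).pow 2).div_const 2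
  have h3 := (hasDerivAt_v c).div_const 2
  have h4 := ((hasDerivAt_v c).log (v_pos c).ne').div_const 2
  have h := ((h1.neg.sub h2).sub h3).sub h4
  refine h.congr_deriv ?_
  have := (lam_pos c).ne'
  simp only [Nat.cast_ofNat, Nat.reduceSub, pow_one]
  field_simp

/-- `d wa / da = - (2 eta - a) / 2 / (1 + a) ^ 2` -/
theorem hasDerivAt_wa {a : ℝ} (ha : 0 < a) :
    HasDerivAt wa (-((2 * eta a - a) / 2 / (1 + a) ^ 2)) a := by
  have h := (hasDerivAt_wc (cc a)).comp a (hasDerivAt_cc ha)
  refine h.congr_deriv ?_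
  have hv := v_pos (cc a)
  have hl := lam_pos (cc a)
  have hq := qv_pos (cc a)
  have hm := m_pos (cc a)
  have hva := v_cc ha
  have e1 : lam (cc a) * m (cc a) = a / (1 + a) := by
    have : v (cc a) = 1 - lam (cc a) * m (cc a) := rfl
    rw [hva] at this
    field_simp at this ⊢
    linarith
  have e2 : eta a * (m (cc a) ^ 2 - v (cc a)) = v (cc a) := by
    unfold eta etc
    field_simp
  have het := eta_pos a
  have e3 : m (cc a) ^ 2 - v (cc a) = v (cc a) / eta a := by
    field_simp
    linarith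
  have e4 : m (cc a) ^ 2 = v (cc a) * (eta a + 1) / eta a := by
    field_simp
    field_simp at e3
    linarith
  have e5 : lam (cc a) = a / (1 + a) / m (cc a) := by
    field_simp
    field_simp at e1
    linarith
  rw [e3, e5, hva]
  rw [hva] at e4
  field_simp
  field_simp at e4
  have : m (cc a) ^ 2 * (eta a * (1 + a)) = eta a + 1 := by linarith
  linear_combination (-2 * a) * this

end Vale.Agent.P254.H876
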