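import Mathlib

/-!
P254, sharp profile: the half line truncated Gaussian (helper876).

`ph c = exp (-c²/2)`, `Ph c = ∫_{-∞}^c ph`, hazard `lam = ph / Ph`, mean `m = lam + c` and variance
`v = 1 - lam m` of the Gaussian `N(c,1)` conditioned to be positive.
-/

namespace Vale.Agent.P254.H876

open Real Set Filter Topology MeasureTheory

/-- unnormalised Gaussian density -/
noncomputable def ph (c : ℝ) : ℝ := Real.exp (-(1 / 2) * c ^ 2)

/-- unnormalised distribution function -/
noncomputable def Ph (c : ℝ) : ℝ := ∫ t in Iic c, ph t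

theorem ph_pos (c : ℝ) : 0 < ph c := Real.exp_pos _

theorem hasDerivAt_ph (c : ℝ) : HasDerivAt ph (-c * ph c) c := by
  have h : HasDerivAt (fun c : ℝ => -(1 / 2) * c ^ 2) (-(1 / 2) * (2 * c)) c := by
    have := (hasDerivAt_pow 2 c).const_mul (-(1 / 2 : ℝ))
    simpa using this
  have h2 := h.exp
  refine h2.congr_deriv ?_
  unfold ph
  ring

theorem continuous_ph : Continuous ph := by
  unfold ph
  fun_prop

theorem integrable_ph : Integrable ph := by
  unfold ph
  exact integrable_exp_neg_mul_sq (by norm_num : (0 : ℝ) < 1 / 2)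

theorem integrable_mul_ph : Integrable fun t : ℝ => t * ph t := by
  unfold ph
  exact integrable_mul_exp_neg_mul_sq (by norm_num : (0 : ℝ) < 1 / 2)

theorem Ph_eq (c : ℝ) : Ph c = Ph 0 + ∫ t in (0 : ℝ)..c, ph t := by
  unfold Ph
  rw [← intervalIntegral.integral_Iic_sub_Iic integrable_ph.integrableOn
    integrable_ph.integrableOn]
  ring

theorem hasDerivAt_Ph (c : ℝ) : HasDerivAt Ph (ph c) c := by
  have h : HasDerivAt (fun c : ℝ => Ph 0 + ∫ t in (0 : ℝ)..c, ph t) (ph c) c :=
    (intervalIntegral.integral_hasDerivAt_right (continuous_ph.intervalIntegrable _ _)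
      (continuous_ph.stronglyMeasurableAtFilter _ _) continuous_ph.continuousAt).const_add _
  refine h.congr_of_eventuallyEq (Eventually.of_forall fun c => Ph_eq c)

theorem tendsto_Ph_bot : Tendsto Ph atBot (𝓝 0) := tendsto_integral_Iic_zero tendsto_id

theorem tendsto_ph_bot : Tendsto ph atBot (𝓝 0) := by
  unfold ph
  have h : Tendsto (fun c : ℝ => c ^ 2) atBot atTop := by
    have : Tendsto (fun c : ℝ => c * c) atBot atTop := tendsto_id.atBot_mul_atBot₀ tendsto_id
    simpa [sq] using this
  have h2 : Tendsto (fun c : ℝ => -(1 / 2) * c ^ 2) atBot atBot := by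
    exact h.const_mul_atTop_of_neg (by norm_num)
  exact Real.tendsto_exp_atBot.comp h2

theorem tendsto_ph_top : Tendsto ph atTop (𝓝 0) := by
  have h : ∀ c, ph c = ph (-c) := fun c => by unfold ph; congr 1; ring
  have := tendsto_ph_bot.comp tendsto_neg_atTop_atBot
  refine this.congr fun c => ?_
  simp only [Function.comp]
  exact (h c).symm

/-- a function with positive derivative which tends to zero at `-∞` is positive -/
theorem pos_of_deriv_pos {f f' : ℝ → ℝ} {c : ℝ} (h : ∀ x ≤ c, HasDerivAt f (f' x) x)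
    (hp : ∀ x ≤ c, 0 < f' x) (h0 : Tendsto f atBot (𝓝 0)) : 0 < f c := by
  have hmono : StrictMonoOn f (Iic c) := by
    apply strictMonoOn_of_deriv_pos (convex_Iic c)
    · exact fun x hx => (h x hx).continuousAt.continuousWithinAt
    · intro x hx
      rw [interior_Iic] at hx
      rw [(h x hx.le).deriv]
      exact hp x hx.le
  have h1 : f (c - 1) < f c := hmono (by simp) (by simp) (by linarith)
  have h2 : 0 ≤ f (c - 1) := by
    refine le_of_tendsto h0 ?_
    filter_upwards [eventually_le_atBot (c - 1)] with x hx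
    exact hmono.monotoneOn (show x ≤ c by linarith) (by simp) hx
  linarith

/-- same, nonstrict -/
theorem nonneg_of_deriv_nonneg {f f' : ℝ → ℝ} {c : ℝ} (h : ∀ x ≤ c, HasDerivAt f (f' x) x)
    (hp : ∀ x ≤ c, 0 ≤ f' x) (h0 : Tendsto f atBot (𝓝 0)) : 0 ≤ f c := by
  have hmono : MonotoneOn f (Iic c) := by
    apply monotoneOn_of_deriv_nonneg (convex_Iic c)
    · exact fun x hx => (h x hx).continuousAt.continuousWithinAt
    · exact fun x hx => by
        rw [interior_Iic] at hx
        exact (h x hx.le).differentiableAt.differentiableWithinAt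
    · intro x hx
      rw [interior_Iic] at hx
      rw [(h x hx.le).deriv]
      exact hp x hx.le
  refine le_of_tendsto h0 ?_
  filter_upwards [eventually_le_atBot c] with x hx
  exact hmono hx (by simp) hx

theorem Ph_pos (c : ℝ) : 0 < Ph c :=
  pos_of_deriv_pos (fun x _ => hasDerivAt_Ph x) (fun x _ => ph_pos x) tendsto_Ph_bot

/-- `P1 = ph + c Ph`, the primitive of `Ph` -/
noncomputable def P1 (c : ℝ) : ℝ := ph c + c * Ph c

theorem hasDerivAt_P1 (c : ℝ) : HasDerivAt P1 (Ph c) c := by
  have h := (hasDerivAt_ph c).add ((hasDerivAt_id c).mul (hasDerivAt_Ph c))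
  refine h.congr_deriv ?_
  simp only [id]
  ring

theorem neg_mul_Ph_le {c : ℝ} : -c * Ph c ≤ ph c := by
  have h1 : ∫ t in Iic c, -t * ph t = ph c - 0 :=
    integral_Iic_of_hasDerivAt_of_tendsto' (fun x _ => hasDerivAt_ph x)
      (by
        have := integrable_mul_ph.neg.integrableOn (s := Iic c)
        refine this.congr_fun (fun t _ => ?_) measurableSet_Iic
        simp) tendsto_ph_bot
  have h2 : -c * Ph c = ∫ t in Iic c, -c * ph t := by
    unfold Ph
    rw [integral_const_mul]
  rw [h2, ← sub_zero (ph c), ← h1]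
  refine setIntegral_mono_on (integrable_ph.integrableOn.const_mul _) ?_ measurableSet_Iic ?_
  · have := integrable_mul_ph.neg.integrableOn (s := Iic c)
    refine this.congr_fun (fun t _ => ?_) measurableSet_Iic
    simp
  · intro t ht
    have ht' : t ≤ c := ht
    exact mul_le_mul_of_nonneg_right (by linarith) (ph_pos t).le

theorem tendsto_P1_bot : Tendsto P1 atBot (𝓝 0) := by
  refine tendsto_of_tendsto_of_tendsto_of_le_of_le' tendsto_const_nhds tendsto_ph_bot ?_ ?_
  · refine Eventually.of_forall fun c => ?_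
    have := neg_mul_Ph_le (c := c)
    unfold P1
    linarith
  · filter_upwards [eventually_le_atBot 0] with c hc
    unfold P1
    nlinarith [Ph_pos c]

theorem P1_pos (c : ℝ) : 0 < P1 c :=
  pos_of_deriv_pos (fun x _ => hasDerivAt_P1 x) (fun x _ => Ph_pos x) tendsto_P1_bot

/-- hazard -/
noncomputable def lam (c : ℝ) : ℝ := ph c / Ph c
/-- mean -/
noncomputable def m (c : ℝ) : ℝ := P1 c / Ph c
/-- variance -/
noncomputable def v (c : ℝ) : ℝ := 1 - lam c * m c

theorem lam_pos (c : ℝ) : 0 < lam c := div_pos (ph_pos c) (Ph_pos c)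
theorem m_pos (c : ℝ) : 0 < m c := div_pos (P1_pos c) (Ph_pos c)

theorem m_eq (c : ℝ) : m c = lam c + c := by
  have := (Ph_pos c).ne'
  unfold m lam P1
  field_simp

theorem lam_mul_Ph (c : ℝ) : lam c * Ph c = ph c := by
  have := (Ph_pos c).ne'
  unfold lam
  field_simp

theorem m_mul_Ph (c : ℝ) : m c * Ph c = P1 c := by
  have := (Ph_pos c).ne'
  unfold m
  field_simp

theorem hasDerivAt_lam (c : ℝ) : HasDerivAt lam (-(lam c * m c)) c := by
  have h := (hasDerivAt_ph c).div (hasDerivAt_Ph c) (Ph_pos c).ne'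
  refine h.congr_deriv ?_
  have := (Ph_pos c).ne'
  rw [m_eq]
  unfold lam
  field_simp
  ring

theorem hasDerivAt_m (c : ℝ) : HasDerivAt m (v c) c := by
  have h := (hasDerivAt_P1 c).div (hasDerivAt_Ph c) (Ph_pos c).ne'
  refine h.congr_deriv ?_
  have := (Ph_pos c).ne'
  unfold v lam m
  field_simp

theorem hasDerivAt_v (c : ℝ) : HasDerivAt v (lam c * (m c ^ 2 - v c)) c := by
  have h := ((hasDerivAt_lam c).mul (hasDerivAt_m c)).const_sub 1
  refine h.congr_deriv ?_
  ring

theorem hasDerivAt_vPh (c : ℝ) : HasDerivAt (fun c => v c * Ph c) (ph c * m c ^ 2) c := by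
  have h := (hasDerivAt_v c).mul (hasDerivAt_Ph c)
  refine h.congr_deriv ?_
  rw [← lam_mul_Ph]
  ring

theorem hasDerivAt_qvPh (c : ℝ) :
    HasDerivAt (fun c => (m c ^ 2 - v c) * Ph c) (2 * m c * v c * Ph c) c := by
  have h := (((hasDerivAt_m c).pow 2).sub (hasDerivAt_v c)).mul (hasDerivAt_Ph c)
  refine h.congr_deriv ?_
  rw [← lam_mul_Ph]
  simp only [Nat.cast_ofNat, Nat.reduceSub, pow_one, Pi.sub_apply, Pi.pow_apply]
  ring

theorem m_lt {c : ℝ} (hc : c < 0) : m c < 1 / (-c) := by
  have key : 0 < Ph c / (-c) - P1 c := by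
    refine pos_of_deriv_pos (f := fun c => Ph c / (-c) - P1 c)
      (f' := fun c => P1 c / (-c) + Ph c / c ^ 2) (c := c) ?_ ?_ ?_
    · intro x hx
      have hx0 : x < 0 := lt_of_le_of_lt hx hc
      have hx1 : -x ≠ 0 := by linarith
      have h := ((hasDerivAt_Ph x).div (hasDerivAt_neg x) hx1).sub (hasDerivAt_P1 x)
      refine h.congr_deriv ?_
      unfold P1
      have hx2 : x ≠ 0 := hx0.ne
      field_simp
      ring
    · intro x hx
      have hx0 : x < 0 := lt_of_le_of_lt hx hc
      have h1 : 0 < P1 x / (-x) := div_pos (P1_pos x) (by linarith)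
      have hx2 : x ≠ 0 := hx0.ne
      have h2 : 0 < Ph x / x ^ 2 := div_pos (Ph_pos x) (by positivity)
      linarith
    · have h1 : Tendsto (fun c : ℝ => (-c)⁻¹) atBot (𝓝 0) :=
        tendsto_inv_atTop_zero.comp tendsto_neg_atBot_atTop
      have h2 := (tendsto_Ph_bot.mul h1).sub tendsto_P1_bot
      simpa [div_eq_mul_inv] using h2
  have hP := Ph_pos c
  have : m c * Ph c < (1 / (-c)) * Ph c := by
    rw [m_mul_Ph]
    have : 1 / (-c) * Ph c = Ph c / (-c) := by ring
    linarith
  exact lt_of_mul_lt_mul_right this hP.le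

theorem m_lt_one {c : ℝ} (hc : c ≤ -1) : m c < 1 := by
  have h := m_lt (c := c) (by linarith)
  refine h.trans_le ?_
  rw [div_le_one (by linarith)]
  linarith

theorem abs_v_le {c : ℝ} (hc : c ≤ -1) : |v c| ≤ 1 := by
  have h1 := m_pos c
  have h2 := m_lt_one hc
  have h3 := m_lt (c := c) (by linarith)
  have h4 : m c * (-c) < 1 := by
    rw [lt_div_iff₀ (by linarith)] at h3
    exact h3
  have h5 : lam c = m c - c := by rw [m_eq]; ring
  rw [abs_le]
  unfold v
  rw [h5]
  constructor <;> nlinarith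

theorem tendsto_bdd_mul_Ph {g : ℝ → ℝ} {C : ℝ} (hg : ∀ c ≤ -1, |g c| ≤ C) :
    Tendsto (fun c => g c * Ph c) atBot (𝓝 0) := by
  have h1 : Tendsto (fun c => C * Ph c) atBot (𝓝 0) := by
    simpa using tendsto_Ph_bot.const_mul C
  refine squeeze_zero_norm' ?_ h1
  filter_upwards [eventually_le_atBot (-1)] with c hc
  rw [Real.norm_eq_abs, abs_mul, abs_of_pos (Ph_pos c)]
  exact mul_le_mul_of_nonneg_right (hg c hc) (Ph_pos c).le

theorem v_pos (c : ℝ) : 0 < v c := by
  have h : 0 < v c * Ph c := pos_of_deriv_pos (f := fun c => v c * Ph c)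
    (fun x _ => hasDerivAt_vPh x) (fun x _ => mul_pos (ph_pos x) (pow_pos (m_pos x) 2))
    (tendsto_bdd_mul_Ph fun c hc => abs_v_le hc)
  exact (pos_iff_pos_of_mul_pos h).2 (Ph_pos c)

theorem v_lt_one (c : ℝ) : v c < 1 := by
  have := mul_pos (lam_pos c) (m_pos c)
  unfold v
  linarith

theorem qv_pos (c : ℝ) : 0 < m c ^ 2 - v c := by
  have h : 0 < (m c ^ 2 - v c) * Ph c := pos_of_deriv_pos (f := fun c => (m c ^ 2 - v c) * Ph c)
    (fun x _ => hasDerivAt_qvPh x)
    (fun x _ => mul_pos (mul_pos (mul_pos two_pos (m_pos x)) (v_pos x)) (Ph_pos x))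
    (tendsto_bdd_mul_Ph (C := 2) fun c hc => by
      have h1 := abs_v_le hc
      have h2 := m_lt_one hc
      have h3 := m_pos c
      rw [abs_le] at h1 ⊢
      constructor <;> nlinarith)
  exact (pos_iff_pos_of_mul_pos h).2 (Ph_pos c)

theorem v_strictMono : StrictMono v := by
  apply strictMono_of_deriv_pos
  intro x
  rw [(hasDerivAt_v x).deriv]
  exact mul_pos (lam_pos x) (qv_pos x)

theorem m_strictMono : StrictMono m := by
  apply strictMono_of_deriv_pos
  intro x
  rw [(hasDerivAt_m x).deriv]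
  exact v_pos x

theorem v_ge {c : ℝ} (hc : c ≤ 0) : m c ^ 2 / 3 ≤ v c := by
  have h : 0 ≤ (v c - m c ^ 2 / 3) * Ph c := by
    refine nonneg_of_deriv_nonneg (f := fun c => (v c - m c ^ 2 / 3) * Ph c)
      (f' := fun c => 2 / 3 * m c * Ph c * (lam c * m c - v c)) (c := c) ?_ ?_ ?_
    · intro x _
      have h := ((hasDerivAt_v x).sub (((hasDerivAt_m x).pow 2).div_const 3)).mul
        (hasDerivAt_Ph x)
      refine h.congr_deriv ?_
      rw [← lam_mul_Ph]
      simp only [Nat.cast_ofNat, Nat.reduceSub, pow_one, Pi.sub_apply, Pi.pow_apply]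
      ring
    · intro x hx
      have h1 : m x ≤ lam x := by rw [m_eq]; linarith
      have h2 : m x * m x ≤ lam x * m x := mul_le_mul_of_nonneg_right h1 (m_pos x).le
      have h3 := qv_pos x
      have h4 : 0 ≤ lam x * m x - v x := by nlinarith
      have := m_pos x
      have := Ph_pos x
      positivity
    · refine tendsto_bdd_mul_Ph (C := 2) fun c hc => ?_
      have h1 := abs_v_le hc
      have h2 := m_lt_one hc
      have h3 := m_pos c
      rw [abs_le] at h1 ⊢
      constructor <;> nlinarith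
  by_contra hcon
  have := mul_neg_of_neg_of_pos (show v c - m c ^ 2 / 3 < 0 by linarith) (Ph_pos c)
  linarith

theorem qv_ge {c : ℝ} (hc : c ≤ -1) : m c ^ 4 / 6 ≤ m c ^ 2 - v c := by
  have h : 0 ≤ (m c ^ 2 - v c - m c ^ 4 / 6) * Ph c := by
    refine nonneg_of_deriv_nonneg (f := fun c => (m c ^ 2 - v c - m c ^ 4 / 6) * Ph c)
      (f' := fun c => m c * Ph c * (2 * v c - 2 / 3 * m c ^ 2 * v c - 1 / 6 * m c ^ 3 * lam c))
      (c := c) ?_ ?_ ?_
    · intro x _
      have h := ((((hasDerivAt_m x).pow 2).sub (hasDerivAt_v x)).sub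
        (((hasDerivAt_m x).pow 4).div_const 6)).mul (hasDerivAt_Ph x)
      refine h.congr_deriv ?_
      rw [← lam_mul_Ph]
      simp only [Nat.cast_ofNat, Nat.reduceSub, pow_one, Pi.sub_apply, Pi.pow_apply]
      ring
    · intro x hx
      have hx1 : x ≤ -1 := hx.trans hc
      have h1 : lam x * m x < 1 := by
        have := v_pos x
        unfold v at this
        linarith
      have h2 := v_ge (c := x) (by linarith)
      have h3 := m_lt_one hx1
      have h4 := m_pos x
      have h5 : m x ^ 3 * lam x ≤ m x ^ 2 := by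
        have : m x ^ 3 * lam x = m x ^ 2 * (lam x * m x) := by ring
        rw [this]
        nlinarith [sq_nonneg (m x)]
      have h6 : m x ^ 2 ≤ 1 := by nlinarith
      have h7 := v_pos x
      have h8 : 0 ≤ 2 * v x - 2 / 3 * m x ^ 2 * v x - 1 / 6 * m x ^ 3 * lam x := by
        nlinarith
      have := Ph_pos x
      positivity
    · refine tendsto_bdd_mul_Ph (C := 3) fun c hc => ?_
      have h1 := abs_v_le hc
      have h2 := m_lt_one hc
      have h3 := m_pos c
      have h4 : m c ^ 2 ≤ 1 := by nlinarith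
      have h5 : m c ^ 4 ≤ 1 := by
        have : m c ^ 4 = (m c ^ 2) ^ 2 := by ring
        rw [this]
        nlinarith [sq_nonneg (m c)]
      have h6 : 0 ≤ m c ^ 4 := by positivity
      have h7 : 0 ≤ m c ^ 2 := by positivity
      rw [abs_le] at h1 ⊢
      constructor <;> linarith
  by_contra hcon
  have := mul_neg_of_neg_of_pos (show m c ^ 2 - v c - m c ^ 4 / 6 < 0 by linarith) (Ph_pos c)
  linarith

theorem qv_le (c : ℝ) : m c ^ 2 - v c ≤ 2 * m c ^ 2 * v c := by
  have h : 0 ≤ 2 * m c * v c * P1 c - (m c ^ 2 - v c) * Ph c := by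
    refine nonneg_of_deriv_nonneg
      (f := fun t => 2 * m c * v c * P1 t - (m t ^ 2 - v t) * Ph t)
      (f' := fun t => 2 * m c * v c * Ph t - 2 * m t * v t * Ph t) (c := c) ?_ ?_ ?_
    · intro x _
      exact ((hasDerivAt_P1 x).const_mul _).sub (hasDerivAt_qvPh x)
    · intro x hx
      have h1 : m x ≤ m c := m_strictMono.monotone hx
      have h2 : v x ≤ v c := v_strictMono.monotone hx
      have h3 : m x * v x ≤ m c * v c :=
        mul_le_mul h1 h2 (v_pos x).le (m_pos c).le
      have := Ph_pos x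
      nlinarith
    · have h1 := tendsto_P1_bot.const_mul (2 * m c * v c)
      have h2 : Tendsto (fun c => (m c ^ 2 - v c) * Ph c) atBot (𝓝 0) :=
        tendsto_bdd_mul_Ph (C := 2) fun c hc => by
          have h1 := abs_v_le hc
          have h2 := m_lt_one hc
          have h3 := m_pos c
          rw [abs_le] at h1 ⊢
          constructor <;> nlinarith
      simpa using h1.sub h2
  rw [← m_mul_Ph] at h
  have hP := Ph_pos c
  have h2 : 0 ≤ (2 * m c ^ 2 * v c - (m c ^ 2 - v c)) * Ph c := by
    have : (2 * m c ^ 2 * v c - (m c ^ 2 - v c)) * Ph c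
      = 2 * m c * v c * (m c * Ph c) - (m c ^ 2 - v c) * Ph c := by ring
    rw [this]
    exact h
  have h3 := nonneg_of_mul_nonneg_left h2 hP
  linarith

theorem tendsto_v_bot : Tendsto v atBot (𝓝 0) := by
  have h1 : Tendsto (fun c : ℝ => ((-c)⁻¹) ^ 2) atBot (𝓝 0) := by
    have := (tendsto_inv_atTop_zero.comp (tendsto_neg_atBot_atTop (G := ℝ))).pow 2
    simpa using this
  refine squeeze_zero' (Eventually.of_forall fun c => (v_pos c).le) ?_ h1
  filter_upwards [eventually_le_atBot (-1)] with c hc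
  have h2 := qv_pos c
  have h3 := m_lt (c := c) (by linarith)
  have h4 := m_pos c
  rw [one_div] at h3
  nlinarith

theorem tendsto_mul_ph_top : Tendsto (fun c => c * ph c) atTop (𝓝 0) := by
  have h : Tendsto (fun x : ℝ => x * Real.exp (-x)) atTop (𝓝 0) := by
    have := Real.tendsto_pow_mul_exp_neg_atTop_nhds_zero 1
    simpa using this
  refine squeeze_zero' ?_ ?_ h
  · filter_upwards [eventually_ge_atTop 0] with c hc
    exact mul_nonneg hc (ph_pos c).le
  · filter_upwards [eventually_ge_atTop 2] with c hc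
    refine mul_le_mul_of_nonneg_left ?_ (by linarith)
    unfold ph
    apply Real.exp_le_exp.2
    nlinarith

theorem Ph_mono : StrictMono Ph := by
  apply strictMono_of_deriv_pos
  intro x
  rw [(hasDerivAt_Ph x).deriv]
  exact ph_pos x

theorem tendsto_Ph_top : Tendsto Ph atTop (𝓝 (√(2 * π))) := by
  have h1 := MeasureTheory.intervalIntegral_tendsto_integral_Ioi (0 : ℝ)
    (integrable_ph.integrableOn (s := Ioi 0)) (tendsto_id (α := ℝ) (x := atTop))
  have h2 : Tendsto (fun c => Ph 0 + ∫ t in (0 : ℝ)..c, ph t) atTop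
      (𝓝 (Ph 0 + ∫ t in Ioi (0 : ℝ), ph t)) := h1.const_add _
  have h3 : Ph 0 + ∫ t in Ioi (0 : ℝ), ph t = √(2 * π) := by
    unfold Ph
    rw [intervalIntegral.integral_Iic_add_Ioi integrable_ph.integrableOn
      integrable_ph.integrableOn]
    unfold ph
    rw [integral_gaussian]
    congr 1
    field_simp
  rw [← h3]
  exact h2.congr fun c => (Ph_eq c).symm

theorem tendsto_lam_top : Tendsto lam atTop (𝓝 0) := by
  have h := tendsto_ph_top.div tendsto_Ph_top (by positivity)
  rw [zero_div] at h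
  exact h

theorem tendsto_mul_lam_top : Tendsto (fun c => c * lam c) atTop (𝓝 0) := by
  have h := tendsto_mul_ph_top.div tendsto_Ph_top (by positivity)
  simp only [zero_div] at h
  refine h.congr fun c => ?_
  simp only [Pi.div_apply, lam]
  ring

theorem tendsto_v_top : Tendsto v atTop (𝓝 1) := by
  have h := (((tendsto_lam_top.mul tendsto_lam_top).add tendsto_mul_lam_top)).const_sub 1
  simp only [mul_zero, add_zero, sub_zero] at h
  refine h.congr fun c => ?_
  unfold v
  rw [m_eq]
  ring

end Vale.Agent.P254.H876
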