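import Vale.Agent.P254.H876.Eta

/-!
P254, sharp profile: qualitative analysis of the scalar ODE
`H' = H (a + H) (a + H + 2) / (2 a (a + 1)) - 1`, `H = 2 eta - a`.
-/

namespace Vale.Agent.P254.H876

open Real Set Filter Topology MeasureTheory

/-! ### barrier lemmas -/

/-- a function which would have to grow exponentially if it were negative somewhere -/
theorem barrier {P P' : ℝ → ℝ} {κ : ℝ} (hκ : 0 < κ) (hP : ∀ a, 0 < a → HasDerivAt P (P' a) a)
    (hb : ∀ a, 0 < a → P a < 0 → P' a ≤ κ * P a)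
    (hg : ∃ n : ℕ, ∃ C : ℝ, ∀ᶠ a in atTop, -P a ≤ C * a ^ n) : ∀ a, 0 < a → 0 ≤ P a := by
  intro a0 ha0
  by_contra hneg
  push Not at hneg
  obtain ⟨n, C, hC⟩ := hg
  -- exponential decay
  have hexp : ∀ x, a0 ≤ x → P x ≤ P a0 * Real.exp (κ / 2 * (x - a0)) := by
    intro x hx
    have hB : ∀ y, HasDerivAt (fun y => P a0 * Real.exp (κ / 2 * (y - a0)))
        (κ / 2 * (P a0 * Real.exp (κ / 2 * (y - a0)))) y := by
      intro y
      have h1 : HasDerivAt (fun y => κ / 2 * (y - a0)) (κ / 2 * 1) y :=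
        ((hasDerivAt_id y).sub_const a0).const_mul _
      refine (h1.exp.const_mul (P a0)).congr_deriv ?_
      ring
    refine image_le_of_deriv_right_lt_deriv_boundary (a := a0) (b := x) (f := P) (f' := P')
      (B' := fun y => κ / 2 * (P a0 * Real.exp (κ / 2 * (y - a0)))) ?_ ?_ ?_ hB ?_
      (right_mem_Icc.2 hx)
    · intro y hy
      exact (hP y (lt_of_lt_of_le ha0 hy.1)).continuousAt.continuousWithinAt
    · intro y hy
      exact (hP y (lt_of_lt_of_le ha0 hy.1)).hasDerivWithinAt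
    · simp
    · intro y hy hfy
      have hy0 := lt_of_lt_of_le ha0 hy.1
      have hBneg : P a0 * Real.exp (κ / 2 * (y - a0)) < 0 :=
        mul_neg_of_neg_of_pos hneg (Real.exp_pos _)
      have h1 := hb y hy0 (by rw [hfy]; exact hBneg)
      rw [hfy] at h1
      nlinarith
  -- contradiction with polynomial growth
  have hlim : Tendsto (fun x : ℝ => x ^ n * Real.exp (-(κ / 2) * x)) atTop (𝓝 0) := by
    have h := Real.tendsto_pow_mul_exp_neg_atTop_nhds_zero n
    have h1 : Tendsto (fun x : ℝ => (κ / 2) * x) atTop atTop :=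
      tendsto_id.const_mul_atTop (by positivity)
    have h2 := (h.comp h1).const_mul ((κ / 2) ^ n)⁻¹
    rw [mul_zero] at h2
    refine h2.congr fun x => ?_
    simp only [Function.comp]
    rw [mul_pow]
    have : (κ / 2) ^ n ≠ 0 := by positivity
    field_simp
  have hlim2 := hlim.const_mul C
  rw [mul_zero] at hlim2
  have hpos : 0 < -P a0 * Real.exp (-(κ / 2) * a0) :=
    mul_pos (by linarith) (Real.exp_pos _)
  have hev := (hlim2.eventually (gt_mem_nhds hpos)).and (hC.and (eventually_ge_atTop a0))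
  obtain ⟨x, hx1, hx2, hx3⟩ := hev.exists
  have h3 := hexp x hx3
  have h4 : Real.exp (κ / 2 * (x - a0)) = Real.exp (κ / 2 * x) * Real.exp (-(κ / 2) * a0) := by
    rw [← Real.exp_add]
    congr 1
    ring
  rw [h4] at h3
  have h5 : Real.exp (κ / 2 * x) * Real.exp (-(κ / 2) * x) = 1 := by
    rw [← Real.exp_add]
    simp
  have h6 : (-P a0 * Real.exp (-(κ / 2) * a0)) * Real.exp (κ / 2 * x) ≤ C * x ^ n := by
    have : (-P a0 * Real.exp (-(κ / 2) * a0)) * Real.exp (κ / 2 * x)
      = -(P a0 * (Real.exp (κ / 2 * x) * Real.exp (-(κ / 2) * a0))) := by ring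
    linarith
  have h7 := mul_le_mul_of_nonneg_right h6 (Real.exp_pos (-(κ / 2) * x)).le
  have h8 : (-P a0 * Real.exp (-(κ / 2) * a0)) * Real.exp (κ / 2 * x) *
      Real.exp (-(κ / 2) * x) = -P a0 * Real.exp (-(κ / 2) * a0) := by
    rw [mul_assoc, h5, mul_one]
  have h9 : C * x ^ n * Real.exp (-(κ / 2) * x) = C * (x ^ n * Real.exp (-(κ / 2) * x)) := by
    ring
  linarith

/-- strict version -/
theorem pos_of_nonneg {P P' : ℝ → ℝ} (hP : ∀ a, 0 < a → HasDerivAt P (P' a) a)
    (h0 : ∀ a, 0 < a → 0 ≤ P a) (hb : ∀ a, 0 < a → P a = 0 → P' a ≠ 0) :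
    ∀ a, 0 < a → 0 < P a := by
  intro a ha
  rcases (h0 a ha).lt_or_eq with h | h
  · exact h
  · exfalso
    refine hb a ha h.symm ?_
    refine IsLocalMin.hasDerivAt_eq_zero ?_ (hP a ha)
    filter_upwards [Ioi_mem_nhds ha] with x hx
    rw [← h]
    exact h0 x hx

/-! ### the function `H` -/

/-- `H = 2 eta - a` -/
noncomputable def HH (a : ℝ) : ℝ := 2 * eta a - a

/-- `X = 2 G H - A = a (a + 1) H'` as a polynomial -/
noncomputable def XX (a H : ℝ) : ℝ := H * (a + H) * (a + H + 2) / 2 - a * (a + 1)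

theorem hasDerivAt_HH {a : ℝ} (ha : 0 < a) :
    HasDerivAt HH (XX a (HH a) / (a * (a + 1))) a := by
  have h := ((hasDerivAt_eta ha).const_mul 2).sub (hasDerivAt_id a)
  refine h.congr_deriv ?_
  unfold XX HH
  field_simp
  ring

theorem HH_ge {a : ℝ} (ha : 0 < a) : -1 ≤ HH a := eta_ge ha

theorem HH_add_pos {a : ℝ} : 0 < a + HH a := by
  have := eta_pos a
  unfold HH
  linarith

theorem HH_le : ∀ᶠ a in atTop, HH a ≤ 12 * (a + 1) := by
  filter_upwards [eta_le, eventually_gt_atTop 0] with a h ha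
  unfold HH
  linarith

theorem HH_nonneg : ∀ a, 0 < a → 0 ≤ HH a := by
  refine barrier (κ := 1) one_pos (fun a ha => hasDerivAt_HH ha) ?_ ?_
  · intro a ha hH
    have h1 := HH_ge ha
    have h2 := HH_add_pos (a := a)
    have hA : 0 < a * (a + 1) := by positivity
    rw [div_le_iff₀ hA]
    have h3 : HH a * (a + HH a) * (a + HH a + 2) ≤ 0 := by
      have : 0 < (a + HH a) * (a + HH a + 2) := by positivity
      nlinarith
    unfold XX
    nlinarith
  · refine ⟨0, 1, ?_⟩
    filter_upwards [eventually_gt_atTop 0] with a ha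
    have := HH_ge ha
    simp
    linarith

theorem HH_pos : ∀ a, 0 < a → 0 < HH a := by
  refine pos_of_nonneg (fun a ha => hasDerivAt_HH ha) HH_nonneg ?_
  intro a ha h0
  rw [h0]
  unfold XX
  have hA : 0 < a * (a + 1) := by positivity
  have : (0 * (a + 0) * (a + 0 + 2) / 2 - a * (a + 1)) / (a * (a + 1)) = -1 := by
    field_simp
    ring
  rw [this]
  norm_num

theorem HH_le_two : ∀ a, 0 < a → 0 ≤ 2 - HH a := by
  refine barrier (κ := 1 / 2) (by norm_num) (fun a ha => (hasDerivAt_HH ha).const_sub 2) ?_ ?_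
  · intro a ha hH
    have hA : 0 < a * (a + 1) := by positivity
    have h : (HH a / 2 - 1) * (a * (a + 1)) ≤ XX a (HH a) := by
      have h2 : 2 < HH a := by linarith
      obtain ⟨r, hr⟩ : ∃ r, HH a = 2 + r := ⟨HH a - 2, by ring⟩
      have hr0 : 0 < r := by linarith
      rw [hr]
      unfold XX
      have e : (2 + r) * (a + (2 + r)) * (a + (2 + r) + 2) / 2 - a * (a + 1)
        - ((2 + r) / 2 - 1) * (a * (a + 1)) =
        5 * a + 8 + r * (9 / 2 * a + 10) + r ^ 2 * (a + 4) + r ^ 3 / 2 := by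
        ring
      have e2 : 0 ≤ 5 * a + 8 + r * (9 / 2 * a + 10) + r ^ 2 * (a + 4) + r ^ 3 / 2 := by
        positivity
      linarith
    have h2 : HH a / 2 - 1 ≤ XX a (HH a) / (a * (a + 1)) := by
      rw [le_div_iff₀ hA]
      exact h
    linarith
  · refine ⟨1, 24, ?_⟩
    filter_upwards [HH_le, eventually_ge_atTop 1] with a h ha
    rw [pow_one]
    linarith

theorem HH_lt_two : ∀ a, 0 < a → 0 < 2 - HH a := by
  refine pos_of_nonneg (fun a ha => (hasDerivAt_HH ha).const_sub 2) HH_le_two ?_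
  intro a ha h0
  have h2 : HH a = 2 := by linarith
  rw [h2]
  have hA : 0 < a * (a + 1) := by positivity
  unfold XX
  have : 0 < (2 * (a + 2) * (a + 2 + 2) / 2 - a * (a + 1)) / (a * (a + 1)) := by
    refine div_pos ?_ hA
    nlinarith
  linarith

/-! ### the function `J` -/

/-- `J = 2 a + 1 - H (H + a + 1)` -/
noncomputable def JJ (a : ℝ) : ℝ := 2 * a + 1 - HH a * (HH a + a + 1)

theorem hasDerivAt_JJ {a : ℝ} (ha : 0 < a) :
    HasDerivAt JJ (2 - HH a - XX a (HH a) / (a * (a + 1)) * (2 * HH a + a + 1)) a := by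
  have hH := hasDerivAt_HH ha
  have h1 := ((hasDerivAt_id a).const_mul 2).add_const 1
  have h2 := hH.mul ((hH.add (hasDerivAt_id a)).add_const 1)
  have h := h1.sub h2
  refine h.congr_deriv ?_
  simp only [id_eq, Pi.add_apply]
  ring

theorem alg_J {a H : ℝ} (ha : 0 < a) (h0 : 0 < H) (h2 : H < 2)
    (hJ : 2 * a + 1 - H * (H + a + 1) ≤ 0) :
    2 - H - XX a H / (a * (a + 1)) * (2 * H + a + 1) ≤ -(1 / 2) := by
  have hA : 0 < a * (a + 1) := by positivity
  have key : (2 - H + 1 / 2) * (a * (a + 1)) ≤ XX a H * (2 * H + a + 1) := by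
    unfold XX
    have hq : 2 * a + 1 ≤ H * (H + a + 1) := by linarith
    have h3 : (2 * a + 1) * (a + 1) + 2 * a * H ≤ H * (a + H) * (a + H + 2) := by
      nlinarith [mul_le_mul_of_nonneg_right hq (by positivity : 0 ≤ a + H + 1)]
    have h4 : 0 < 2 * H + a + 1 := by positivity
    have h5 := mul_le_mul_of_nonneg_right h3 h4.le
    -- remaining: `(2a+1)(a+1) H + 2 a H² + (a+1)(1/2 - 2 a) ≥ 0`
    have h6 : (2 * a + 1) ≤ H * (a + 3) := by nlinarith
    have h7 : 0 ≤ (2 * a + 1) * H + 1 / 2 - 2 * a := by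
      have : 0 ≤ ((2 * a + 1) * H + 1 / 2 - 2 * a) * (a + 3) := by
        nlinarith [mul_le_mul_of_nonneg_left h6 (by positivity : 0 ≤ 2 * a + 1), sq_nonneg (a - 1)]
      exact nonneg_of_mul_nonneg_left this (by positivity)
    have h8 : 0 ≤ (a + 1) * ((2 * a + 1) * H + 1 / 2 - 2 * a) := by positivity
    have h9 : 0 ≤ 2 * a * H ^ 2 := by positivity
    nlinarith
  have : 2 - H + 1 / 2 ≤ XX a H / (a * (a + 1)) * (2 * H + a + 1) := by
    rw [div_mul_eq_mul_div, le_div_iff₀ hA]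
    exact key
  linarith

theorem JJ_ge {a : ℝ} (ha : 0 < a) : -5 ≤ JJ a := by
  have h0 := HH_pos a ha
  have h2 := HH_lt_two a ha
  unfold JJ
  nlinarith

theorem JJ_nonneg : ∀ a, 0 < a → 0 ≤ JJ a := by
  refine barrier (κ := 1 / 10) (by norm_num) (fun a ha => hasDerivAt_JJ ha) ?_ ?_
  · intro a ha hJ
    have h0 := HH_pos a ha
    have h2 := HH_lt_two a ha
    have h3 := alg_J ha h0 (by linarith) hJ.le
    have h4 := JJ_ge ha
    linarith
  · refine ⟨0, 5, ?_⟩
    filter_upwards [eventually_gt_atTop 0] with a ha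
    have := JJ_ge ha
    simp
    linarith

theorem JJ_pos : ∀ a, 0 < a → 0 < JJ a := by
  refine pos_of_nonneg (fun a ha => hasDerivAt_JJ ha) JJ_nonneg ?_
  intro a ha hJ
  have h0 := HH_pos a ha
  have h2 := HH_lt_two a ha
  have h3 := alg_J ha h0 (by linarith) hJ.le
  linarith

/-! ### the function `f = H' / 2` -/

/-- `f = H' / 2` -/
noncomputable def ff (a : ℝ) : ℝ := XX a (HH a) / (a * (a + 1)) / 2

theorem hasDerivAt_HH' {a : ℝ} (ha : 0 < a) : HasDerivAt HH (2 * ff a) a := by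
  refine (hasDerivAt_HH ha).congr_deriv ?_
  unfold ff
  ring

theorem XX_eq {a : ℝ} (ha : 0 < a) : XX a (HH a) = 2 * (a * (a + 1)) * ff a := by
  unfold ff
  field_simp

theorem hasDerivAt_ff {a : ℝ} (ha : 0 < a) :
    HasDerivAt ff (((a + HH a) * (a + HH a + 2) / 2 * ff a - (1 / 2 + ff a) * JJ a)
      / (a * (a + 1))) a := by
  have hH := hasDerivAt_HH ha
  have hA : (a * (a + 1)) ≠ 0 := by positivity
  have h1 : HasDerivAt (fun x => XX x (HH x)) _ a :=
    (((hH.mul ((hasDerivAt_id a).add hH)).mul (((hasDerivAt_id a).add hH).add_const 2)).div_const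
      2).sub ((hasDerivAt_id a).mul ((hasDerivAt_id a).add_const 1))
  have h2 := (h1.div ((hasDerivAt_id a).mul ((hasDerivAt_id a).add_const 1)) hA).div_const 2
  refine h2.congr_deriv ?_
  simp only [id_eq, Pi.add_apply, Pi.mul_apply]
  have : ff a = XX a (HH a) / (a * (a + 1)) / 2 := rfl
  rw [this]
  unfold JJ XX
  field_simp
  ring

theorem half_add_ff_pos {a : ℝ} (ha : 0 < a) : 0 < 1 / 2 + ff a := by
  have h0 := HH_pos a ha
  have : 1 / 2 + ff a = HH a * (a + HH a) * (a + HH a + 2) / 4 / (a * (a + 1)) := by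
    unfold ff XX
    field_simp
    ring
  rw [this]
  positivity

theorem ff_nonneg : ∀ a, 0 < a → 0 ≤ ff a := by
  refine barrier (κ := 1 / 2) (by norm_num) (fun a ha => hasDerivAt_ff ha) ?_ ?_
  · intro a ha hf
    have h0 := HH_pos a ha
    have h1 := half_add_ff_pos ha
    have h2 := JJ_pos a ha
    have hA : 0 < a * (a + 1) := by positivity
    rw [div_le_iff₀ hA]
    have h3 : 0 < (1 / 2 + ff a) * JJ a := mul_pos h1 h2
    have h4 : a * (a + 1) ≤ (a + HH a) * (a + HH a + 2) := by nlinarith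
    nlinarith
  · refine ⟨0, 1, ?_⟩
    filter_upwards [eventually_gt_atTop 0] with a ha
    have := half_add_ff_pos ha
    simp
    linarith

theorem ff_pos : ∀ a, 0 < a → 0 < ff a := by
  refine pos_of_nonneg (fun a ha => hasDerivAt_ff ha) ff_nonneg ?_
  intro a ha hf
  rw [hf]
  have h2 := JJ_pos a ha
  have hA : 0 < a * (a + 1) := by positivity
  have : ((a + HH a) * (a + HH a + 2) / 2 * 0 - (1 / 2 + 0) * JJ a) / (a * (a + 1)) < 0 := by
    refine div_neg_of_neg_of_pos ?_ hA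
    linarith
  exact this.ne

/-! ### the bound `a (2 - H) ≤ 10` -/

theorem alg_U {a H : ℝ} (ha : 0 < a) (h0 : 0 < H) (h2 : H < 2) (hU : 10 - a * (2 - H) < 0) :
    -(2 - H) + a * (XX a H / (a * (a + 1))) ≤ 1 / 3 * (10 - a * (2 - H)) := by
  have hA : 0 < a * (a + 1) := by positivity
  have ha5 : 5 < a := by nlinarith
  have e : a * (XX a H / (a * (a + 1))) = XX a H / (a + 1) := by
    field_simp
  rw [e]
  have hz : 0 < 2 - H := by linarith
  obtain ⟨z, hz'⟩ : ∃ z, z = 2 - H := ⟨_, rfl⟩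
  have hH : H = 2 - z := by linarith
  rw [← hz'] at hU hz
  subst hH
  have key : XX a (2 - z) ≤ (z + 1 / 3 * (10 - a * z)) * (a + 1) := by
    unfold XX
    have hz2 : z < 2 := by linarith
    have h3 : (2 - z) * (a + (2 - z)) * (a + (2 - z) + 2) / 2 - a * (a + 1) =
      5 * a + 8 - z * (a ^ 2 / 2 + 5 * a + 10) + z ^ 2 * (a + 4) - z ^ 3 / 2 := by ring
    rw [h3]
    have h4 : z ^ 2 * (a + 4) ≤ 2 * z * (a + 4) := by nlinarith
    have h5 : 0 ≤ z ^ 3 := by positivity
    nlinarith [mul_pos hz ha]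
  have h6 : XX a (2 - z) / (a + 1) ≤ z + 1 / 3 * (10 - a * z) := by
    rw [div_le_iff₀ (by positivity)]
    exact key
  have : 2 - (2 - z) = z := by ring
  rw [this]
  linarith

theorem U_le : ∀ a, 0 < a → 0 ≤ 10 - a * (2 - HH a) := by
  have hd : ∀ a, 0 < a → HasDerivAt (fun a => 10 - a * (2 - HH a))
      (-(2 - HH a) + a * (XX a (HH a) / (a * (a + 1)))) a := by
    intro a ha
    have h := (((hasDerivAt_id a).mul ((hasDerivAt_HH ha).const_sub 2)).const_sub 10)
    refine h.congr_deriv ?_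
    simp only [id_eq]
    ring
  refine barrier (κ := 1 / 3) (by norm_num) hd ?_ ?_
  · intro a ha hU
    exact alg_U ha (HH_pos a ha) (by linarith [HH_lt_two a ha]) hU
  · refine ⟨1, 2, ?_⟩
    filter_upwards [eventually_gt_atTop 0] with a ha
    have := HH_pos a ha
    rw [pow_one]
    nlinarith

end Vale.Agent.P254.H876
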