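import Vale.Agent.P254.H876.WLim
import Vale.Agent.P254.Bdl.B3

/-!
P254: the sharp profile `p` (`p³ = k`, squared skewness of the half line truncated Gaussian as a
function of its variance) and the function `w`, as elements of `L.Profile` and `L.WProfile`.
-/

namespace Vale.Agent.P254.H876

open Real Set Filter Topology MeasureTheory

/-! ### the change of variables `a = 1 / x - 1` -/

/-- `a = 1 / x - 1` -/
noncomputable def al (x : ℝ) : ℝ := 1 / x - 1

theorem al_pos {x : ℝ} (hx : x ∈ Ioo (0 : ℝ) 1) : 0 < al x := by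
  unfold al
  have := one_lt_one_div hx.1 hx.2
  linarith

theorem one_add_al {x : ℝ} : 1 + al x = 1 / x := by
  unfold al
  ring

theorem x_eq {x : ℝ} (_hx : x ∈ Ioo (0 : ℝ) 1) : x = 1 / (1 + al x) := by
  rw [one_add_al, one_div_one_div]

theorem one_sub_eq {x : ℝ} (hx : x ∈ Ioo (0 : ℝ) 1) : 1 - x = al x / (1 + al x) := by
  have hx0 := hx.1.ne'
  rw [one_add_al]
  unfold al
  field_simp

theorem hasDerivAt_al {x : ℝ} (hx : x ∈ Ioo (0 : ℝ) 1) :
    HasDerivAt al (-(1 + al x) ^ 2) x := by
  have h := ((hasDerivAt_inv hx.1.ne').sub_const 1)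
  have e : al = fun y => y⁻¹ - 1 := by
    funext y
    simp [al]
  rw [e]
  refine h.congr_deriv ?_
  have := hx.1.ne'
  field_simp
  ring

theorem continuousOn_al : ContinuousOn al (Ioo 0 1) :=
  fun _ hx => (hasDerivAt_al hx).continuousAt.continuousWithinAt

/-! ### `k` and `p` as functions of `a` -/

/-- `k = a² / (eta (eta + 1))` -/
noncomputable def kk (a : ℝ) : ℝ := 4 * a ^ 2 / ((a + HH a) * (a + HH a + 2))

/-- `p = k^{1/3}` -/
noncomputable def pp (a : ℝ) : ℝ := kk a ^ (1 / 3 : ℝ)

theorem kk_pos {a : ℝ} (ha : 0 < a) : 0 < kk a := by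
  have := HH_pos a ha
  unfold kk
  positivity

theorem pp_pos {a : ℝ} (ha : 0 < a) : 0 < pp a := Real.rpow_pos_of_pos (kk_pos ha) _

theorem pp_cube {a : ℝ} (ha : 0 < a) : pp a ^ 3 = kk a := by
  unfold pp
  rw [← Real.rpow_natCast, ← Real.rpow_mul (kk_pos ha).le]
  norm_num

theorem hasDerivAt_kk {a : ℝ} (ha : 0 < a) :
    HasDerivAt kk (kk a * ((JJ a + 1) / (a * (a + 1)))) a := by
  have hH := hasDerivAt_HH ha
  have h0 := HH_pos a ha
  have hid := hasDerivAt_id a
  have h1 : HasDerivAt kk _ a :=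
    ((hid.pow 2).const_mul 4).div ((hid.add hH).mul ((hid.add hH).add_const 2)) (by
      show (a + HH a) * (a + HH a + 2) ≠ 0
      positivity)
  refine h1.congr_deriv ?_
  simp only [id_eq, Pi.add_apply, Pi.mul_apply, Pi.pow_apply, Nat.cast_ofNat,
    Nat.add_one_sub_one, pow_one]
  unfold kk JJ XX
  field_simp
  ring

theorem hasDerivAt_pp {a : ℝ} (ha : 0 < a) :
    HasDerivAt pp (pp a * ((JJ a + 1) / (3 * (a * (a + 1))))) a := by
  have hk := kk_pos ha
  have h := (hasDerivAt_kk ha).rpow_const (p := (1 / 3 : ℝ)) (Or.inl hk.ne')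
  refine h.congr_deriv ?_
  have e : kk a ^ ((1 : ℝ) / 3 - 1) = pp a / kk a := by
    rw [Real.rpow_sub hk, Real.rpow_one]
    rfl
  rw [e]
  field_simp

/-- `dp/dx` as a function of `a` -/
noncomputable def pa1 (a : ℝ) : ℝ := -((1 + a) * (JJ a + 1) / (3 * a)) * pp a

/-- `J'` -/
noncomputable def JJ' (a : ℝ) : ℝ := 2 - HH a - XX a (HH a) / (a * (a + 1)) * (2 * HH a + a + 1)

/-- the `a`-derivative of `pa1` -/
noncomputable def pa1' (a : ℝ) : ℝ :=
  -(((JJ a + 1 + (1 + a) * JJ' a) * (3 * a) - (1 + a) * (JJ a + 1) * 3) / (3 * a) ^ 2) * pp a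
    - (1 + a) * (JJ a + 1) / (3 * a) * (pp a * ((JJ a + 1) / (3 * (a * (a + 1)))))

theorem hasDerivAt_pa1 {a : ℝ} (ha : 0 < a) : HasDerivAt pa1 (pa1' a) a := by
  have hid := hasDerivAt_id a
  have hJ : HasDerivAt JJ (JJ' a) a := hasDerivAt_JJ ha
  have h := ((((hid.const_add 1).mul (hJ.add_const 1)).div (hid.const_mul 3) (by
    simp only [id_eq]; positivity)).neg).mul (hasDerivAt_pp ha)
  refine h.congr_deriv ?_
  simp only [id_eq, Pi.mul_apply, Pi.neg_apply, Pi.div_apply]
  unfold pa1'
  ring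

theorem continuousOn_HH : ContinuousOn HH (Ioi 0) :=
  fun _ hx => (hasDerivAt_HH hx).continuousAt.continuousWithinAt

theorem continuousOn_JJ : ContinuousOn JJ (Ioi 0) :=
  fun _ hx => (hasDerivAt_JJ hx).continuousAt.continuousWithinAt

theorem continuousOn_pp : ContinuousOn pp (Ioi 0) :=
  fun _ hx => (hasDerivAt_pp hx).continuousAt.continuousWithinAt

theorem continuousOn_ff : ContinuousOn ff (Ioi 0) :=
  fun _ hx => (hasDerivAt_ff hx).continuousAt.continuousWithinAt

theorem JJ'_eq (a : ℝ) : JJ' a = 2 - HH a - 2 * ff a * (2 * HH a + a + 1) := by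
  unfold JJ' ff
  ring

theorem continuousOn_JJ' : ContinuousOn JJ' (Ioi 0) := by
  have h : ContinuousOn (fun a => 2 - HH a - 2 * ff a * (2 * HH a + a + 1)) (Ioi 0) := by
    have h1 := continuousOn_HH
    have h2 := continuousOn_ff
    fun_prop
  refine h.congr fun a _ => JJ'_eq a

theorem continuousOn_pa1' : ContinuousOn pa1' (Ioi 0) := by
  have h1 := continuousOn_HH
  have h2 := continuousOn_JJ
  have h3 := continuousOn_pp
  have h4 := continuousOn_JJ'
  unfold pa1'
  refine ContinuousOn.sub (ContinuousOn.mul (ContinuousOn.neg (ContinuousOn.div ?_ ?_ ?_)) h3)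
    (ContinuousOn.mul (ContinuousOn.div ?_ ?_ ?_) (ContinuousOn.mul h3 (ContinuousOn.div ?_ ?_ ?_)))
  · fun_prop
  · fun_prop
  · intro x hx
    have : (0 : ℝ) < x := hx
    positivity
  · fun_prop
  · fun_prop
  · intro x hx
    have : (0 : ℝ) < x := hx
    positivity
  · fun_prop
  · fun_prop
  · intro x hx
    have : (0 : ℝ) < x := hx
    positivity

/-! ### the profile -/

theorem mapsTo_al : MapsTo al (Ioo 0 1) (Ioi 0) := fun _ hx => al_pos hx

/-- the sharp profile -/
noncomputable def sharp : L.Profile where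
  p x := pp (al x)
  p1 x := pa1 (al x)
  p2 x := pa1' (al x) * (-(1 + al x) ^ 2)
  pos x hx := pp_pos (al_pos hx)
  d1 x hx := by
    have ha := al_pos hx
    have h := (hasDerivAt_pp ha).comp x (hasDerivAt_al hx)
    refine h.congr_deriv ?_
    unfold pa1
    field_simp
    ring
  d2 x hx := (hasDerivAt_pa1 (al_pos hx)).comp x (hasDerivAt_al hx)
  c2 := by
    have h1 := continuousOn_pa1'.comp continuousOn_al mapsTo_al
    have h2 := continuousOn_al
    exact h1.mul (((continuousOn_const.add h2).pow 2).neg)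

theorem sharp_cube {x : ℝ} (hx : x ∈ Ioo (0 : ℝ) 1) : sharp.p x ^ 3 = kk (al x) :=
  pp_cube (al_pos hx)

/-! ### the function `w` -/

theorem cc_eq {x : ℝ} (hx : x ∈ Ioo (0 : ℝ) 1) :
    1 / 4 - x ^ 2 * (-(ff (al x) * (1 + al x) ^ 2)) / 2 = (1 / 2 + ff (al x)) / 2 := by
  have h : x * (1 + al x) = 1 := by
    rw [one_add_al]
    field_simp [hx.1.ne']
  have h2 : x ^ 2 * (1 + al x) ^ 2 = 1 := by
    rw [← mul_pow, h, one_pow]
  linear_combination (ff (al x) / 2) * h2

/-- `c (a) = GH / (2 A)` -/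
theorem half_ff_eq {a : ℝ} (ha : 0 < a) :
    (1 / 2 + ff a) / 2 = HH a * (a + HH a) * (a + HH a + 2) / (8 * (a * (a + 1))) := by
  unfold ff XX
  field_simp
  ring

theorem cij_aux {x y : ℝ} (hx : x ∈ Ioo (0 : ℝ) 1) (hy : y ∈ Ioo (0 : ℝ) 1) (hxy : al x < al y) :
    1 / 4 - x * y * ((HH (al x) / 2 - HH (al y) / 2) / (x - y)) / 2
      ≤ √((1 / 2 + ff (al x)) / 2) * √((1 / 2 + ff (al y)) / 2) := by
  have hax := al_pos hx
  have hay := al_pos hy
  have hne : x - y ≠ 0 := by
    intro h
    have : x = y := by linarith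
    rw [this] at hxy
    exact lt_irrefl _ hxy
  have hd : al y - al x = (x - y) / (x * y) := by
    unfold al
    field_simp [hx.1.ne', hy.1.ne']
    ring
  have hpos : 0 < al y - al x := by linarith
  have h := eta_chord hax hxy
  have e1 : √((1 / 2 + ff (al x)) / 2) * √((1 / 2 + ff (al y)) / 2) =
      (√(1 / 2 + ff (al x)) * √(1 / 2 + ff (al y))) / 2 := by
    rw [Real.sqrt_div (half_add_ff_pos hax).le, Real.sqrt_div (half_add_ff_pos hay).le]
    have : √(2 : ℝ) * √2 = 2 := Real.mul_self_sqrt (by norm_num)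
    rw [div_mul_div_comm, this]
  rw [e1]
  have e2 : 1 / 4 - x * y * ((HH (al x) / 2 - HH (al y) / 2) / (x - y)) / 2 =
      (eta (al y) - eta (al x)) / (al y - al x) / 2 := by
    rw [hd]
    have hx0 := hx.1.ne'
    have hy0 := hy.1.ne'
    have e3 : al x = 1 / x - 1 := rfl
    have e4 : al y = 1 / y - 1 := rfl
    have e5 : eta (al y) - eta (al x) = (HH (al y) - HH (al x)) / 2 + (al y - al x) / 2 := by
      unfold HH
      ring
    rw [e5, hd]
    field_simp
    ring
  rw [e2]
  have h2 : (eta (al y) - eta (al x)) / (al y - al x) ≤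
      √(1 / 2 + ff (al x)) * √(1 / 2 + ff (al y)) := by
    rw [div_le_iff₀ hpos]
    linarith
  linarith

/-- the function `w` of the sharp profile -/
noncomputable def sharpW : L.WProfile sharp where
  w x := wa (al x)
  w1 x := HH (al x) / 2
  w2 x := -(ff (al x) * (1 + al x) ^ 2)
  d1 x hx := by
    have ha := al_pos hx
    have h := (hasDerivAt_wa ha).comp x (hasDerivAt_al hx)
    refine h.congr_deriv ?_
    unfold HH
    field_simp
  d2 x hx := by
    have ha := al_pos hx
    have h := ((hasDerivAt_HH' ha).div_const 2).comp x (hasDerivAt_al hx)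
    refine h.congr_deriv ?_
    ring
  c2 := by
    have h1 := continuousOn_ff.comp continuousOn_al mapsTo_al
    have h2 := continuousOn_al
    exact (h1.mul ((continuousOn_const.add h2).pow 2)).neg
  ode x hx := by
    have ha := al_pos hx
    have h0 := HH_pos _ ha
    rw [cc_eq hx, sharp_cube hx, half_ff_eq ha, one_sub_eq hx]
    unfold kk
    field_simp
    ring
  cmin := 1 / 4
  cmin_pos := by norm_num
  c_ge x hx := by
    rw [cc_eq hx]
    have := ff_pos _ (al_pos hx)
    linarith
  cmax := 2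
  c_le x hx := by
    have ha := al_pos hx
    have h0 := HH_pos _ ha
    have h2 := HH_lt_two _ ha
    rw [cc_eq hx, half_ff_eq ha, one_sub_eq hx]
    obtain ⟨a, hae⟩ : ∃ a, a = al x := ⟨_, rfl⟩
    rw [← hae] at ha h0 h2 ⊢
    have e : HH a * (a + HH a) * (a + HH a + 2) / (8 * (a * (a + 1))) * (a / (1 + a)) =
      HH a * (a + HH a) * (a + HH a + 2) / (8 * (1 + a) ^ 2) := by
      field_simp
      ring
    rw [e, div_le_iff₀ (by positivity)]
    have h3 : HH a * (a + HH a) * (a + HH a + 2) ≤ 2 * (a + 2) * (a + 2 + 2) := by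
      have hH2 : HH a ≤ 2 := by linarith
      gcongr
    nlinarith
  w1_pos x hx := by
    have := HH_pos _ (al_pos hx)
    linarith
  w1max := 1
  w1_le x hx := by
    have := HH_lt_two _ (al_pos hx)
    linarith
  w_nonneg x hx := (wa_pos (al_pos hx)).le
  w_le x hx := by
    have h := (wa_lt (al_pos hx)).le
    refine h.trans (le_of_eq ?_)
    rw [Real.log_mul (by positivity) (Real.exp_pos 1).ne', Real.log_exp]
    ring
  cij x hx y hy := by
    rw [cc_eq hx, cc_eq hy]
    unfold L.dd1
    by_cases hxy : x = y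
    · subst hxy
      rw [if_pos rfl, Real.mul_self_sqrt (by have := half_add_ff_pos (al_pos hx); positivity),
        ← cc_eq hx]
      apply le_of_eq
      ring
    · rw [if_neg hxy]
      rcases lt_trichotomy (al x) (al y) with h | h | h
      · exact cij_aux hx hy h
      · exfalso
        apply hxy
        rw [x_eq hx, x_eq hy, h]
      · have h1 := cij_aux hy hx h
        rw [mul_comm (√((1 / 2 + ff (al x)) / 2))]
        refine le_trans (le_of_eq ?_) h1
        have e : (HH (al x) / 2 - HH (al y) / 2) / (x - y) =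
          (HH (al y) / 2 - HH (al x) / 2) / (y - x) := by
          rw [← neg_sub (HH (al y) / 2), ← neg_sub y x, neg_div_neg_eq]
        rw [e]
        ring

end Vale.Agent.P254.H876
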