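import Vale.Agent.P254.H876.SchwAlg

/-!
P254, sharp profile: `(eta')^{-1/2}` is concave, and `(eta y - eta x)² ≤ (y - x)² eta'(x) eta'(y)`.
-/

namespace Vale.Agent.P254.H876

open Real Set Filter Topology MeasureTheory

theorem XX_pos {a : ℝ} (ha : 0 < a) : 0 < XX a (HH a) := by
  rw [XX_eq ha]
  have := ff_pos a ha
  positivity

theorem hasDerivAt_EE {a : ℝ} (ha : 0 < a) :
    HasDerivAt (fun a => EE a (HH a))
      ((((a + HH a) * (a + HH a + 2) / 2 + (HH a + a + 1) * HH a + 4 * a + 3) * EE a (HH a)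
      + (Sc2 a (HH a) * XX a (HH a) ^ 2 - Sc1 a (HH a) * XX a (HH a) + HH a * Sd0 a (HH a)))
        / (a * (a + 1))) a := by
  have hH := hasDerivAt_HH ha
  have hA : (a * (a + 1)) ≠ 0 := by positivity
  have hid := hasDerivAt_id a
  obtain ⟨X0, hX0⟩ : ∃ X0, X0 = XX a (HH a) := ⟨_, rfl⟩
  obtain ⟨d, hd⟩ : ∃ d, d = XX a (HH a) / (a * (a + 1)) := ⟨_, rfl⟩
  rw [← hd] at hH
  have h1 : HasDerivAt (fun x => XX x (HH x)) _ a :=
    (((hH.mul (hid.add hH)).mul ((hid.add hH).add_const 2)).div_const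
      2).sub (hid.mul (hid.add_const 1))
  have h2 : HasDerivAt (fun x => SL1 x (HH x)) _ a :=
    ((hid.mul (hid.add_const 1)).add (((hH.add hid).add_const 1).mul (hH.pow 2))).add
      (((hid.add_const 1).const_mul 2).mul hH)
  have h3 : HasDerivAt (fun x => Sl0 x (HH x)) _ a :=
    (((((hid.pow 2).mul (((hH.pow 2).add hH).sub_const 1)).add
      (hid.mul ((((hH.pow 3).add ((hH.pow 2).const_mul 3)).add hH).sub_const 1))).add
      ((hH.pow 3).const_mul (3 / 2))).add ((hH.pow 2).const_mul 2)).sub (hH.div_const 2)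
  have h4 : HasDerivAt (fun x => EE x (HH x)) _ a :=
    ((h1.mul h2).sub ((h1.pow 2).div_const 2)).sub (hH.mul h3)
  refine h4.congr_deriv ?_
  have hX : XX a (HH a) = d * (a * (a + 1)) := by
    rw [hd]; field_simp
  rw [eq_div_iff hA]
  simp only [id_eq, Pi.add_apply, Pi.mul_apply, Pi.pow_apply, Nat.cast_ofNat,
    Nat.add_one_sub_one, pow_one]
  have hXu : XX a (HH a) = HH a * (a + HH a) * (a + HH a + 2) / 2 - a * (a + 1) := rfl
  rw [hXu] at hX
  have hdA : d * (a * (a + 1)) = HH a * (a + HH a) * (a + HH a + 2) / 2 - a * (a + 1) := hX.symm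
  unfold EE Sc2 Sc1 Sd0 SL1 Sl0 XX
  obtain ⟨H, hHe⟩ : ∃ H, H = HH a := ⟨_, rfl⟩
  rw [← hHe] at hdA ⊢
  have hd' : d = (H * (a + H) * (a + H + 2) / 2 - a * (a + 1)) / (a * (a + 1)) := by
    rw [eq_div_iff hA]
    exact hdA
  rw [hd']
  field_simp
  ring

theorem EE_nonneg : ∀ a, 0 < a → 0 ≤ EE a (HH a) := by
  refine barrier (κ := 1 / 2) (by norm_num) (fun a ha => hasDerivAt_EE ha) ?_ ?_
  · intro a ha hE
    have hA : 0 < a * (a + 1) := by positivity
    rw [div_le_iff₀ hA]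
    have h := algE ha (HH_pos a ha) (by linarith [HH_lt_two a ha]) (XX_pos ha).le hE
    linarith
  · refine ⟨2, 180, ?_⟩
    filter_upwards [eventually_ge_atTop 1] with a ha
    have ha0 : 0 < a := by linarith
    have h0 := HH_pos a ha0
    have h2 : HH a < 2 := by linarith [HH_lt_two a ha0]
    have hX := XX_pos ha0
    have hL : 0 < SL1 a (HH a) := by unfold SL1; positivity
    have hX2 : XX a (HH a) ≤ 5 * a + 8 := by
      have e : XX a (HH a) = -(1 / 2) * a ^ 2 * (2 - HH a) + a * (HH a ^ 2 + HH a - 1)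
        + 1 / 2 * HH a ^ 2 * (HH a + 2) := by
        unfold XX
        ring
      rw [e]
      have h3 : HH a ^ 2 ≤ 4 := by nlinarith
      have h4 : HH a ^ 2 * (HH a + 2) ≤ 4 * 4 := by
        refine mul_le_mul h3 (by linarith) (by linarith) (by norm_num)
      have h5 : 0 ≤ a ^ 2 * (2 - HH a) := by
        have : 0 ≤ 2 - HH a := by linarith
        positivity
      nlinarith
    have hl : Sl0 a (HH a) ≤ 5 * a ^ 2 + 21 * a + 20 := by
      unfold Sl0
      have h3 : HH a ^ 2 ≤ 4 := by nlinarith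
      have h4 : HH a ^ 3 ≤ 8 := by
        have : HH a ^ 3 = HH a ^ 2 * HH a := by ring
        rw [this]
        nlinarith
      nlinarith [sq_nonneg a]
    have h6 : HH a * Sl0 a (HH a) ≤ 2 * (5 * a ^ 2 + 21 * a + 20) := by
      have h7 : 0 ≤ 5 * a ^ 2 + 21 * a + 20 := by positivity
      calc HH a * Sl0 a (HH a) ≤ HH a * (5 * a ^ 2 + 21 * a + 20) :=
            mul_le_mul_of_nonneg_left hl h0.le
        _ ≤ 2 * (5 * a ^ 2 + 21 * a + 20) := mul_le_mul_of_nonneg_right h2.le h7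
    have h8 : XX a (HH a) ^ 2 ≤ (5 * a + 8) ^ 2 := pow_le_pow_left₀ hX.le hX2 2
    have h9 := mul_pos hX hL
    unfold EE
    nlinarith

/-! ### the derivative `g = eta' = f + 1/2` -/

theorem hasDerivAt_eta' {a : ℝ} (ha : 0 < a) : HasDerivAt eta (1 / 2 + ff a) a := by
  have h := ((hasDerivAt_HH' ha).add (hasDerivAt_id a)).div_const 2
  have e : ((HH + id) / fun _ => (2 : ℝ)) = eta := by
    funext x
    simp [HH]
  refine (h.congr_of_eventuallyEq (f₁ := eta) (Eventually.of_forall fun x => ?_)).congr_deriv ?_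
  · simp [HH]
  · ring

/-- logarithmic derivative of `eta'` -/
noncomputable def LL (a : ℝ) : ℝ := (XX a (HH a) - HH a * JJ a) / (a * (a + 1) * HH a)

theorem hasDerivAt_gg {a : ℝ} (ha : 0 < a) :
    HasDerivAt (fun x => 1 / 2 + ff x) (LL a * (1 / 2 + ff a)) a := by
  have h := (hasDerivAt_ff ha).const_add (1 / 2)
  refine h.congr_deriv ?_
  have h0 := HH_pos a ha
  unfold LL ff JJ XX
  field_simp
  ring

theorem hasDerivAt_LL {a : ℝ} (ha : 0 < a) :
    HasDerivAt LL (LL a ^ 2 / 2 + EE a (HH a) / (a * (a + 1) * HH a) ^ 2) a := by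
  have hH := hasDerivAt_HH ha
  have h0 := HH_pos a ha
  have hA : (a * (a + 1)) ≠ 0 := by positivity
  have hid := hasDerivAt_id a
  obtain ⟨d, hd⟩ : ∃ d, d = XX a (HH a) / (a * (a + 1)) := ⟨_, rfl⟩
  rw [← hd] at hH
  have h1 : HasDerivAt (fun x => XX x (HH x)) _ a :=
    (((hH.mul (hid.add hH)).mul ((hid.add hH).add_const 2)).div_const
      2).sub (hid.mul (hid.add_const 1))
  have h2 := hasDerivAt_JJ ha
  rw [← hd] at h2
  have h3 : HasDerivAt LL _ a :=
    (h1.sub (hH.mul h2)).div ((hid.mul (hid.add_const 1)).mul hH)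
      (by positivity)
  refine h3.congr_deriv ?_
  simp only [id_eq, Pi.add_apply, Pi.sub_apply, Pi.mul_apply]
  have hd' : d = (HH a * (a + HH a) * (a + HH a + 2) / 2 - a * (a + 1)) / (a * (a + 1)) := by
    rw [hd]
    rfl
  rw [hd']
  unfold LL EE SL1 Sl0 JJ XX
  obtain ⟨H, hHe⟩ : ∃ H, H = HH a := ⟨_, rfl⟩
  rw [← hHe] at h0 ⊢
  field_simp
  ring

/-! ### concavity of `(eta')^{-1/2}` -/

/-- `(eta')^{-1/2}` -/
noncomputable def phi (a : ℝ) : ℝ := (√(1 / 2 + ff a))⁻¹

theorem phi_pos {a : ℝ} (ha : 0 < a) : 0 < phi a :=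
  inv_pos.2 (Real.sqrt_pos.2 (half_add_ff_pos ha))

theorem hasDerivAt_sg {a : ℝ} (ha : 0 < a) :
    HasDerivAt (fun x => √(1 / 2 + ff x)) (LL a / 2 * √(1 / 2 + ff a)) a := by
  have hg := half_add_ff_pos ha
  have h := (hasDerivAt_gg ha).sqrt hg.ne'
  refine h.congr_deriv ?_
  have h1 : √(1 / 2 + ff a) ^ 2 = 1 / 2 + ff a := Real.sq_sqrt hg.le
  have h2 : 0 < √(1 / 2 + ff a) := Real.sqrt_pos.2 hg
  rw [div_eq_iff (by positivity)]
  linear_combination (-LL a) * h1

theorem hasDerivAt_phi {a : ℝ} (ha : 0 < a) : HasDerivAt phi (-(LL a / 2) * phi a) a := by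
  have hg := half_add_ff_pos ha
  have h2 : 0 < √(1 / 2 + ff a) := Real.sqrt_pos.2 hg
  have h := (hasDerivAt_sg ha).inv h2.ne'
  refine h.congr_deriv ?_
  unfold phi
  field_simp

theorem hasDerivAt_phi1 {a : ℝ} (ha : 0 < a) :
    HasDerivAt (fun x => -(LL x / 2) * phi x)
      (-(phi a * (EE a (HH a) / (a * (a + 1) * HH a) ^ 2) / 2)) a := by
  have h := (((hasDerivAt_LL ha).div_const 2).neg).mul (hasDerivAt_phi ha)
  refine h.congr_deriv ?_
  simp only [Pi.neg_apply]
  ring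

theorem antitoneOn_phi1 : AntitoneOn (fun x => -(LL x / 2) * phi x) (Ioi 0) := by
  refine antitoneOn_of_deriv_nonpos (convex_Ioi 0) ?_ ?_ ?_
  · intro x hx
    exact (hasDerivAt_phi1 hx).continuousAt.continuousWithinAt
  · intro x hx
    rw [interior_Ioi] at hx
    exact (hasDerivAt_phi1 hx).differentiableAt.differentiableWithinAt
  · intro x hx
    rw [interior_Ioi] at hx
    rw [(hasDerivAt_phi1 hx).deriv]
    have h1 := EE_nonneg x hx
    have h2 := phi_pos hx
    have h3 : 0 ≤ phi x * (EE x (HH x) / (x * (x + 1) * HH x) ^ 2) / 2 := by positivity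
    linarith

/-- tangent line inequality -/
theorem phi_le {x y : ℝ} (hx : 0 < x) (hxy : x < y) :
    phi x ≤ phi y - (y - x) * (-(LL y / 2) * phi y) := by
  obtain ⟨z, hz, hz2⟩ := exists_hasDerivAt_eq_slope phi (fun x => -(LL x / 2) * phi x) hxy
    (fun t ht => (hasDerivAt_phi (lt_of_lt_of_le hx ht.1)).continuousAt.continuousWithinAt)
    (fun t ht => hasDerivAt_phi (lt_trans hx ht.1))
  have h1 := antitoneOn_phi1 (show z ∈ Ioi (0 : ℝ) from lt_trans hx hz.1)
    (show y ∈ Ioi (0 : ℝ) from lt_trans hx hxy) hz.2.le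
  simp only at h1
  rw [hz2, le_div_iff₀ (by linarith)] at h1
  linarith

/-- the chord inequality for `eta` -/
theorem eta_chord {x y : ℝ} (hx : 0 < x) (hxy : x < y) :
    eta y - eta x ≤ (y - x) * (√(1 / 2 + ff x) * √(1 / 2 + ff y)) := by
  have hd : ∀ t, x ≤ t → HasDerivAt
      (fun t => (t - x) * (√(1 / 2 + ff x) * √(1 / 2 + ff t)) - (eta t - eta x))
      (√(1 / 2 + ff x) * √(1 / 2 + ff t) +
        (t - x) * (√(1 / 2 + ff x) * (LL t / 2 * √(1 / 2 + ff t))) - (1 / 2 + ff t)) t := by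
    intro t ht
    have ht0 : 0 < t := lt_of_lt_of_le hx ht
    have h := (((hasDerivAt_id t).sub_const x).mul
      ((hasDerivAt_sg ht0).const_mul (√(1 / 2 + ff x)))).sub
      ((hasDerivAt_eta' ht0).sub_const (eta x))
    refine h.congr_deriv ?_
    simp only [id_eq]
    ring
  have hmono : MonotoneOn
      (fun t => (t - x) * (√(1 / 2 + ff x) * √(1 / 2 + ff t)) - (eta t - eta x)) (Icc x y) := by
    refine monotoneOn_of_deriv_nonneg (convex_Icc x y) ?_ ?_ ?_
    · intro t ht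
      exact (hd t ht.1).continuousAt.continuousWithinAt
    · intro t ht
      rw [interior_Icc] at ht
      exact (hd t ht.1.le).differentiableAt.differentiableWithinAt
    · intro t ht
      rw [interior_Icc] at ht
      rw [(hd t ht.1.le).deriv]
      have ht0 : 0 < t := lt_trans hx ht.1
      have h1 := phi_le hx ht.1
      have hgx : 0 < √(1 / 2 + ff x) := Real.sqrt_pos.2 (half_add_ff_pos hx)
      have hgt : 0 < √(1 / 2 + ff t) := Real.sqrt_pos.2 (half_add_ff_pos ht0)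
      have hsq : √(1 / 2 + ff t) ^ 2 = 1 / 2 + ff t := Real.sq_sqrt (half_add_ff_pos ht0).le
      unfold phi at h1
      have h2 := mul_le_mul_of_nonneg_left h1
        (show 0 ≤ √(1 / 2 + ff x) * √(1 / 2 + ff t) ^ 2 by positivity)
      have h3 : √(1 / 2 + ff x) * √(1 / 2 + ff t) ^ 2 * (√(1 / 2 + ff x))⁻¹ =
          1 / 2 + ff t := by
        rw [hsq, mul_comm (√(1 / 2 + ff x)), mul_assoc, mul_inv_cancel₀ hgx.ne', mul_one]
      have h4 : √(1 / 2 + ff x) * √(1 / 2 + ff t) ^ 2 *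
          ((√(1 / 2 + ff t))⁻¹ - (t - x) * (-(LL t / 2) * (√(1 / 2 + ff t))⁻¹)) =
          √(1 / 2 + ff x) * √(1 / 2 + ff t) +
            (t - x) * (√(1 / 2 + ff x) * (LL t / 2 * √(1 / 2 + ff t))) := by
        field_simp
        ring
      rw [h3, h4] at h2
      linarith
  have h := hmono (left_mem_Icc.2 hxy.le) (right_mem_Icc.2 hxy.le) hxy.le
  simp only [sub_self, zero_mul] at h
  linarith

end Vale.Agent.P254.H876
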