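import Vale.Agent.P254.H876.Ode

/-!
P254, sharp profile: the polynomial inequality behind the concavity of `(eta')^{-1/2}`.
-/

namespace Vale.Agent.P254.H876

open Real Set Filter Topology MeasureTheory

theorem fbh0 {H : ℝ} (h0 : 1 ≤ H) (h1 : H ≤ 2) :
    0 ≤ -1 / 2 * H ^ 8 - 1 * H ^ 7 + 13 / 4 * H ^ 6 + 9 * H ^ 5 + 2 * H ^ 4 + 9 / 4 * H ^ 2 := by
  obtain ⟨r, hr⟩ : ∃ r, r = H - 1 := ⟨_, rfl⟩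
  obtain ⟨s, hs⟩ : ∃ s, s = 2 - H := ⟨_, rfl⟩
  have hr0 : 0 ≤ r := by linarith
  have hs0 : 0 ≤ s := by linarith
  have e : -1 / 2 * H ^ 8 - 1 * H ^ 7 + 13 / 4 * H ^ 6 + 9 * H ^ 5 + 2 * H ^ 4 + 9 / 4 * H ^ 2 =
      15 * s ^ 8 + 186 * r * s ^ 7 + 1000 * r ^ 2 * s ^ 6 + 3034 * r ^ 3 * s ^ 5 + 22623 / 4 * r
        ^ 4 * s ^ 4 + 13185 / 2 * r ^ 5 * s ^ 3 + 18605 / 4 * r ^ 6 * s ^ 2 + 1791 * r ^ 7 * s +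
        281 * r ^ 8 := by
    rw [hr, hs]
    ring
  rw [e]
  positivity

theorem fbh1 {H : ℝ} (h0 : 1 ≤ H) (h1 : H ≤ 2) :
    0 ≤ -1 * H ^ 7 + 9 / 2 * H ^ 6 + 69 / 4 * H ^ 5 + 9 * H ^ 4 - 13 / 12 * H ^ 3 + 17 / 6 * H ^
        2 + 1 * H := by
  obtain ⟨r, hr⟩ : ∃ r, r = H - 1 := ⟨_, rfl⟩
  obtain ⟨s, hs⟩ : ∃ s, s = 2 - H := ⟨_, rfl⟩
  have hr0 : 0 ≤ r := by linarith
  have hs0 : 0 ≤ s := by linarith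
  have e : -1 * H ^ 7 + 9 / 2 * H ^ 6 + 69 / 4 * H ^ 5 + 9 * H ^ 4 - 13 / 12 * H ^ 3 + 17 / 6 * H
        ^ 2 + 1 * H =
      65 / 2 * s ^ 7 + 2239 / 6 * r * s ^ 6 + 21949 / 12 * r ^ 2 * s ^ 5 + 29687 / 6 * r ^ 3 * s
        ^ 4 + 95449 / 12 * r ^ 4 * s ^ 3 + 22723 / 3 * r ^ 5 * s ^ 2 + 11824 / 3 * r ^ 6 * s +
        2582 / 3 * r ^ 7 := by
    rw [hr, hs]
    ring
  rw [e]
  positivity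

theorem fbh2 {H : ℝ} (h0 : 1 ≤ H) (h1 : H ≤ 2) :
    0 ≤ 5 / 2 * H ^ 6 + 14 * H ^ 5 + 83 / 6 * H ^ 4 - 16 / 3 * H ^ 3 - 17 / 6 * H ^ 2 + 2 / 3 * H
        + 1 / 2 := by
  obtain ⟨r, hr⟩ : ∃ r, r = H - 1 := ⟨_, rfl⟩
  obtain ⟨s, hs⟩ : ∃ s, s = 2 - H := ⟨_, rfl⟩
  have hr0 : 0 ≤ r := by linarith
  have hs0 : 0 ≤ s := by linarith
  have e : 5 / 2 * H ^ 6 + 14 * H ^ 5 + 83 / 6 * H ^ 4 - 16 / 3 * H ^ 3 - 17 / 6 * H ^ 2 + 2 / 3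
        * H + 1 / 2 =
      70 / 3 * s ^ 6 + 778 / 3 * r * s ^ 5 + 3565 / 3 * r ^ 2 * s ^ 4 + 8600 / 3 * r ^ 3 * s ^ 3
        + 11504 / 3 * r ^ 4 * s ^ 2 + 2695 * r ^ 5 * s + 4663 / 6 * r ^ 6 := by
    rw [hr, hs]
    ring
  rw [e]
  positivity

theorem fbh3 {H : ℝ} (h0 : 1 ≤ H) (h1 : H ≤ 2) :
    0 ≤ 5 * H ^ 5 + 59 / 6 * H ^ 4 - 7 / 6 * H ^ 3 - 41 / 6 * H ^ 2 - 5 / 3 * H + 1 := by
  obtain ⟨r, hr⟩ : ∃ r, r = H - 1 := ⟨_, rfl⟩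
  obtain ⟨s, hs⟩ : ∃ s, s = 2 - H := ⟨_, rfl⟩
  have hr0 : 0 ≤ r := by linarith
  have hs0 : 0 ≤ s := by linarith
  have e : 5 * H ^ 5 + 59 / 6 * H ^ 4 - 7 / 6 * H ^ 3 - 41 / 6 * H ^ 2 - 5 / 3 * H + 1 =
      37 / 6 * s ^ 5 + 229 / 3 * r * s ^ 4 + 1027 / 3 * r ^ 2 * s ^ 3 + 4313 / 6 * r ^ 3 * s ^ 2
        + 720 * r ^ 4 * s + 835 / 3 * r ^ 5 := by
    rw [hr, hs]
    ring
  rw [e]
  positivity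

theorem fbh4 {H : ℝ} (h0 : 1 ≤ H) (h1 : H ≤ 2) :
    0 ≤ 2 * H ^ 4 + 7 / 3 * H ^ 3 - 19 / 6 * H ^ 2 - 4 / 3 * H + 1 / 2 := by
  obtain ⟨r, hr⟩ : ∃ r, r = H - 1 := ⟨_, rfl⟩
  obtain ⟨s, hs⟩ : ∃ s, s = 2 - H := ⟨_, rfl⟩
  have hr0 : 0 ≤ r := by linarith
  have hs0 : 0 ≤ s := by linarith
  have e : 2 * H ^ 4 + 7 / 3 * H ^ 3 - 19 / 6 * H ^ 2 - 4 / 3 * H + 1 / 2 =
      1 / 3 * s ^ 4 + 26 / 3 * r * s ^ 3 + 239 / 6 * r ^ 2 * s ^ 2 + 196 / 3 * r ^ 3 * s + 215 /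
        6 * r ^ 4 := by
    rw [hr, hs]
    ring
  rw [e]
  positivity

theorem fbl0 {H : ℝ} (h0 : 0 ≤ H) (h1 : H ≤ 1) :
    0 ≤ -1 / 2 * H ^ 8 - 1 * H ^ 7 + 13 / 4 * H ^ 6 + 9 * H ^ 5 + 2 * H ^ 4 + 9 / 4 * H ^ 2 := by
  obtain ⟨r, hr⟩ : ∃ r, r = H - 0 := ⟨_, rfl⟩
  obtain ⟨s, hs⟩ : ∃ s, s = 1 - H := ⟨_, rfl⟩
  have hr0 : 0 ≤ r := by linarith
  have hs0 : 0 ≤ s := by linarith
  have e : -1 / 2 * H ^ 8 - 1 * H ^ 7 + 13 / 4 * H ^ 6 + 9 * H ^ 5 + 2 * H ^ 4 + 9 / 4 * H ^ 2 =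
      9 / 4 * r ^ 2 * s ^ 6 + 27 / 2 * r ^ 3 * s ^ 5 + 143 / 4 * r ^ 4 * s ^ 4 + 62 * r ^ 5 * s ^
        3 + 76 * r ^ 6 * s ^ 2 + 54 * r ^ 7 * s + 15 * r ^ 8 := by
    rw [hr, hs]
    ring
  rw [e]
  positivity

theorem fbl1 {H : ℝ} (h0 : 0 ≤ H) (h1 : H ≤ 1) :
    0 ≤ -1 * H ^ 7 + 9 / 2 * H ^ 6 + 69 / 4 * H ^ 5 + 9 * H ^ 4 - 37 / 12 * H ^ 3 - 7 / 6 * H ^ 2
        + 1 * H := by
  obtain ⟨r, hr⟩ : ∃ r, r = H - 0 := ⟨_, rfl⟩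
  obtain ⟨s, hs⟩ : ∃ s, s = 1 - H := ⟨_, rfl⟩
  have hr0 : 0 ≤ r := by linarith
  have hs0 : 0 ≤ s := by linarith
  have e : -1 * H ^ 7 + 9 / 2 * H ^ 6 + 69 / 4 * H ^ 5 + 9 * H ^ 4 - 37 / 12 * H ^ 3 - 7 / 6 * H
        ^ 2 + 1 * H =
      1 * r * s ^ 6 + 29 / 6 * r ^ 2 * s ^ 5 + 73 / 12 * r ^ 3 * s ^ 4 + 5 * r ^ 4 * s ^ 3 + 349
        / 12 * r ^ 5 * s ^ 2 + 323 / 6 * r ^ 6 * s + 53 / 2 * r ^ 7 := by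
    rw [hr, hs]
    ring
  rw [e]
  positivity

theorem fbl2 {H : ℝ} (h0 : 0 ≤ H) (h1 : H ≤ 1) :
    0 ≤ 5 / 2 * H ^ 6 + 14 * H ^ 5 + 83 / 6 * H ^ 4 - 149 / 24 * H ^ 3 - 103 / 12 * H ^ 2 - 10 /
        3 * H + 9 / 2 := by
  obtain ⟨r, hr⟩ : ∃ r, r = H - 0 := ⟨_, rfl⟩
  obtain ⟨s, hs⟩ : ∃ s, s = 1 - H := ⟨_, rfl⟩
  have hr0 : 0 ≤ r := by linarith
  have hs0 : 0 ≤ s := by linarith
  have e : 5 / 2 * H ^ 6 + 14 * H ^ 5 + 83 / 6 * H ^ 4 - 149 / 24 * H ^ 3 - 103 / 12 * H ^ 2 - 10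
        / 3 * H + 9 / 2 =
      9 / 2 * s ^ 12 + 152 / 3 * r * s ^ 11 + 1007 / 4 * r ^ 2 * s ^ 10 + 5717 / 8 * r ^ 3 * s ^
        9 + 29981 / 24 * r ^ 4 * s ^ 8 + 8011 / 6 * r ^ 5 * s ^ 7 + 4691 / 6 * r ^ 6 * s ^ 6 +
        1949 / 12 * r ^ 7 * s ^ 5 + 463 / 12 * r ^ 8 * s ^ 4 + 1219 / 6 * r ^ 9 * s ^ 3 + 891 / 4
        * r ^ 10 * s ^ 2 + 2383 / 24 * r ^ 11 * s + 401 / 24 * r ^ 12 := by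
    rw [hr, hs]
    ring
  rw [e]
  positivity

theorem fbl3 {H : ℝ} (h0 : 0 ≤ H) (h1 : H ≤ 1) :
    0 ≤ 5 * H ^ 5 + 59 / 6 * H ^ 4 - 7 / 6 * H ^ 3 - 103 / 12 * H ^ 2 - 65 / 12 * H + 27 / 4 := by
  obtain ⟨r, hr⟩ : ∃ r, r = H - 0 := ⟨_, rfl⟩
  obtain ⟨s, hs⟩ : ∃ s, s = 1 - H := ⟨_, rfl⟩
  have hr0 : 0 ≤ r := by linarith
  have hs0 : 0 ≤ s := by linarith
  have e : 5 * H ^ 5 + 59 / 6 * H ^ 4 - 7 / 6 * H ^ 3 - 103 / 12 * H ^ 2 - 65 / 12 * H + 27 / 4 =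
      27 / 4 * s ^ 6 + 421 / 12 * r * s ^ 5 + 787 / 12 * r ^ 2 * s ^ 4 + 136 / 3 * r ^ 3 * s ^ 3
        + 23 / 12 * r ^ 4 * s ^ 2 + 1 / 4 * r ^ 5 * s + 77 / 12 * r ^ 6 := by
    rw [hr, hs]
    ring
  rw [e]
  positivity

theorem fbl4 {H : ℝ} (h0 : 0 ≤ H) (h1 : H ≤ 1) :
    0 ≤ 2 * H ^ 4 + 7 / 3 * H ^ 3 - 19 / 6 * H ^ 2 - 53 / 24 * H + 9 / 4 := by
  obtain ⟨r, hr⟩ : ∃ r, r = H - 0 := ⟨_, rfl⟩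
  obtain ⟨s, hs⟩ : ∃ s, s = 1 - H := ⟨_, rfl⟩
  have hr0 : 0 ≤ r := by linarith
  have hs0 : 0 ≤ s := by linarith
  have e : 2 * H ^ 4 + 7 / 3 * H ^ 3 - 19 / 6 * H ^ 2 - 53 / 24 * H + 9 / 4 =
      9 / 4 * s ^ 6 + 271 / 24 * r * s ^ 5 + 469 / 24 * r ^ 2 * s ^ 4 + 151 / 12 * r ^ 3 * s ^ 3
        + 5 / 3 * r ^ 4 * s ^ 2 + 19 / 24 * r ^ 5 * s + 29 / 24 * r ^ 6 := by
    rw [hr, hs]
    ring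
  rw [e]
  positivity

theorem kk2 {H : ℝ} (h0 : 0 ≤ H) (h1 : H ≤ 2) :
    0 ≤ 3 / 8 * H ^ 4 - 43 / 24 * H ^ 3 + 17 / 12 * H ^ 2 + 1 * H + 1 := by
  obtain ⟨r, hr⟩ : ∃ r, r = H - 0 := ⟨_, rfl⟩
  obtain ⟨s, hs⟩ : ∃ s, s = 2 - H := ⟨_, rfl⟩
  have hr0 : 0 ≤ r := by linarith
  have hs0 : 0 ≤ s := by linarith
  have e : 3 / 8 * H ^ 4 - 43 / 24 * H ^ 3 + 17 / 12 * H ^ 2 + 1 * H + 1 =
      1 / 16 * s ^ 4 + 3 / 8 * r * s ^ 3 + 53 / 48 * r ^ 2 * s ^ 2 + 7 / 16 * r ^ 3 * s + 1 / 48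
        * r ^ 4 := by
    rw [hr, hs]
    ring
  rw [e]
  positivity

theorem kkD {H : ℝ} (h0 : 0 ≤ H) (h1 : H ≤ 2) :
    0 ≤ -30625 / 147456 * H ^ 10 - 19849 / 36864 * H ^ 9 - 6233 / 4096 * H ^ 8 + 11951 / 2304 * H
        ^ 7 + 4435 / 1152 * H ^ 6 + 23 / 32 * H ^ 5 - 67 / 48 * H ^ 4 + 5 / 2 * H ^ 3 + 1 * H ^ 2
        := by
  obtain ⟨r, hr⟩ : ∃ r, r = H - 0 := ⟨_, rfl⟩
  obtain ⟨s, hs⟩ : ∃ s, s = 2 - H := ⟨_, rfl⟩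
  have hr0 : 0 ≤ r := by linarith
  have hs0 : 0 ≤ s := by linarith
  have e : -30625 / 147456 * H ^ 10 - 19849 / 36864 * H ^ 9 - 6233 / 4096 * H ^ 8 + 11951 / 2304
        * H ^ 7 + 4435 / 1152 * H ^ 6 + 23 / 32 * H ^ 5 - 67 / 48 * H ^ 4 + 5 / 2 * H ^ 3 + 1 * H
        ^ 2 =
      1 / 256 * r ^ 2 * s ^ 8 + 13 / 256 * r ^ 3 * s ^ 7 + 689 / 3072 * r ^ 4 * s ^ 6 + 533 /
        1024 * r ^ 5 * s ^ 5 + 18115 / 18432 * r ^ 6 * s ^ 4 + 14141 / 6144 * r ^ 7 * s ^ 3 +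
        168365 / 49152 * r ^ 8 * s ^ 2 + 24907 / 12288 * r ^ 9 * s + 685 / 12288 * r ^ 10 := by
    rw [hr, hs]
    ring
  rw [e]
  positivity

/-- coefficients in `E = X L1 - X²/2 - H l0` -/
noncomputable def SL1 (a H : ℝ) : ℝ := a * (a + 1) + (H + a + 1) * H ^ 2 + 2 * (a + 1) * H

noncomputable def Sl0 (a H : ℝ) : ℝ :=
  a ^ 2 * (H ^ 2 + H - 1) + a * (H ^ 3 + 3 * H ^ 2 + H - 1) + 3 / 2 * H ^ 3 + 2 * H ^ 2 - H / 2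

/-- the sign of `E` is the sign of the Schwarzian derivative of `eta` -/
noncomputable def EE (a H : ℝ) : ℝ := XX a H * SL1 a H - XX a H ^ 2 / 2 - H * Sl0 a H

noncomputable def Sc2 (a H : ℝ) : ℝ :=
  -a ^ 2 / 4 + a * H + 3 / 2 * a + 9 / 4 * H ^ 2 + H + 3 / 2

/-- `- c1` -/
noncomputable def Sc1 (a H : ℝ) : ℝ :=
  a ^ 2 + a + 2 * a ^ 2 * H + 4 * a * H + 3 / 2 * H + 2 * a ^ 2 * H ^ 2 + 5 * a * H ^ 2 + 3 * H ^ 2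
    + 4 * a * H ^ 3 + 9 / 2 * H ^ 3

noncomputable def Sd0 (a H : ℝ) : ℝ :=
  a ^ 2 * (H ^ 3 + 5 / 2 * H ^ 2 - 1 / 2) + a * (H ^ 4 / 2 + 4 * H ^ 3 + 4 * H ^ 2 - 2 * H - 1 / 2)
    + (H ^ 5 / 2 + H ^ 4 / 2 + 2 * H ^ 3 + 3 / 2 * H ^ 2 - 3 / 2 * H)

noncomputable def SC (a H : ℝ) : ℝ := Sc1 a H * Sl0 a H - Sd0 a H * SL1 a H

noncomputable def Sc2p (a H : ℝ) : ℝ := a * (H + 3 / 2) + 9 / 4 * H ^ 2 + H + 3 / 2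

theorem algK {a H : ℝ} (ha : 0 < a) (h0 : 0 < H) (h2 : H < 2) :
    0 ≤ a ^ 3 * (6 - H) / 6 + a ^ 2 * (1 - H ^ 2 / 6 - 3 / 2 * H ^ 3 + 3 / 8 * H ^ 4)
      + a * (3 / 4 * H ^ 5 + 1 / 4 * H ^ 4 - 5 / 4 * H ^ 3 + 1 / 2 * H ^ 2 - H)
      + H ^ 2 * (3 / 8 * H ^ 4 + H ^ 3 + 1 / 2) := by
  have e : a ^ 3 * (6 - H) / 6 + a ^ 2 * (1 - H ^ 2 / 6 - 3 / 2 * H ^ 3 + 3 / 8 * H ^ 4)
      + a * (3 / 4 * H ^ 5 + 1 / 4 * H ^ 4 - 5 / 4 * H ^ 3 + 1 / 2 * H ^ 2 - H)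
      + H ^ 2 * (3 / 8 * H ^ 4 + H ^ 3 + 1 / 2) =
      (6 - H) / 6 * a * (a - (H / 2 + 7 / 8 * H ^ 2)) ^ 2 +
      ((3 / 8 * H ^ 4 - 43 / 24 * H ^ 3 + 17 / 12 * H ^ 2 + 1 * H + 1) * a ^ 2 +
        (337 / 384 * H ^ 5 - 71 / 192 * H ^ 4 - 25 / 12 * H ^ 3 + 1 / 4 * H ^ 2 - 1 * H) * a +
        (3 / 8 * H ^ 6 + 1 * H ^ 5 + 1 / 2 * H ^ 2)) := by
    ring
  rw [e]
  have h1 : 0 ≤ (6 - H) / 6 * a * (a - (H / 2 + 7 / 8 * H ^ 2)) ^ 2 := by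
    have : 0 ≤ 6 - H := by linarith
    positivity
  have hk2 := kk2 h0.le h2.le
  have hkD := kkD h0.le h2.le
  obtain ⟨k2, hk2e⟩ : ∃ k2, k2 = 3 / 8 * H ^ 4 - 43 / 24 * H ^ 3 + 17 / 12 * H ^ 2 + 1 * H + 1 :=
    ⟨_, rfl⟩
  obtain ⟨k1, hk1e⟩ : ∃ k1, k1 =
    337 / 384 * H ^ 5 - 71 / 192 * H ^ 4 - 25 / 12 * H ^ 3 + 1 / 4 * H ^ 2 - 1 * H := ⟨_, rfl⟩
  obtain ⟨k0, hk0e⟩ : ∃ k0, k0 = 3 / 8 * H ^ 6 + 1 * H ^ 5 + 1 / 2 * H ^ 2 := ⟨_, rfl⟩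
  rw [← hk2e] at hk2
  have hD : 0 ≤ 4 * k2 * k0 - k1 ^ 2 := by
    rw [hk2e, hk1e, hk0e]
    convert hkD using 1
    ring
  rw [← hk2e, ← hk1e, ← hk0e]
  have h3 : 0 ≤ k2 * a ^ 2 + k1 * a + k0 := by
    have hk0 : 0 < k0 := by rw [hk0e]; positivity
    -- `4 k0 (k2 a² + k1 a + k0) = (k1 a + 2 k0)² + (4 k2 k0 - k1²) a²`
    have h4 : 0 ≤ 4 * k0 * (k2 * a ^ 2 + k1 * a + k0) := by
      have : 4 * k0 * (k2 * a ^ 2 + k1 * a + k0) =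
        (k1 * a + 2 * k0) ^ 2 + (4 * k2 * k0 - k1 ^ 2) * a ^ 2 := by ring
      rw [this]
      positivity
    exact nonneg_of_mul_nonneg_right h4 (by positivity)
  linarith

theorem XX_le_of_EE_neg {a H : ℝ} (ha : 0 < a) (h0 : 0 < H) (h2 : H < 2) (hE : EE a H < 0) :
    XX a H ≤ 2 / 3 * a := by
  by_contra hX
  push Not at hX
  have hK := algK ha h0 h2
  have e : EE a H = (XX a H - 2 / 3 * a) * (a ^ 2 * (6 - H) / 4 + (H ^ 2 + 3 * H + 3) * a / 2) +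
      (a ^ 3 * (6 - H) / 6 + a ^ 2 * (1 - H ^ 2 / 6 - 3 / 2 * H ^ 3 + 3 / 8 * H ^ 4)
      + a * (3 / 4 * H ^ 5 + 1 / 4 * H ^ 4 - 5 / 4 * H ^ 3 + 1 / 2 * H ^ 2 - H)
      + H ^ 2 * (3 / 8 * H ^ 4 + H ^ 3 + 1 / 2)) := by
    unfold EE SL1 Sl0 XX
    ring
  have h3 : 0 ≤ (XX a H - 2 / 3 * a) *
      (a ^ 2 * (6 - H) / 4 + (H ^ 2 + 3 * H + 3) * a / 2) := by
    have h4 : 0 ≤ XX a H - 2 / 3 * a := by linarith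
    have h5 : 0 ≤ 6 - H := by linarith
    positivity
  linarith

theorem SC_ge {a H : ℝ} (ha : 0 < a) (h0 : 0 < H) (h2 : H < 2) (hX : 0 ≤ XX a H) :
    2 / 3 * a * Sl0 a H * Sc2p a H ≤ SC a H := by
  rcases le_total 1 H with h1 | h1
  · have e : SC a H - 2 / 3 * a * Sl0 a H * Sc2p a H =
      a ^ 4 * (2 * H ^ 4 + 7 / 3 * H ^ 3 - 19 / 6 * H ^ 2 - 4 / 3 * H + 1 / 2) +
      a ^ 3 * (5 * H ^ 5 + 59 / 6 * H ^ 4 - 7 / 6 * H ^ 3 - 41 / 6 * H ^ 2 - 5 / 3 * H + 1) +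
      a ^ 2 * (5 / 2 * H ^ 6 + 14 * H ^ 5 + 83 / 6 * H ^ 4 - 16 / 3 * H ^ 3 - 17 / 6 * H ^ 2
        + 2 / 3 * H + 1 / 2) +
      a * (-1 * H ^ 7 + 9 / 2 * H ^ 6 + 69 / 4 * H ^ 5 + 9 * H ^ 4 - 13 / 12 * H ^ 3
        + 17 / 6 * H ^ 2 + 1 * H) +
      (-1 / 2 * H ^ 8 - 1 * H ^ 7 + 13 / 4 * H ^ 6 + 9 * H ^ 5 + 2 * H ^ 4 + 9 / 4 * H ^ 2) := by
      unfold SC Sc1 Sd0 SL1 Sl0 Sc2p
      ring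
    have b0 := fbh0 h1 h2.le
    have b1 := fbh1 h1 h2.le
    have b2 := fbh2 h1 h2.le
    have b3 := fbh3 h1 h2.le
    have b4 := fbh4 h1 h2.le
    have h3 : 0 ≤ SC a H - 2 / 3 * a * Sl0 a H * Sc2p a H := by
      rw [e]
      have c4 := mul_nonneg (pow_pos ha 4).le b4
      have c3 := mul_nonneg (pow_pos ha 3).le b3
      have c2 := mul_nonneg (pow_pos ha 2).le b2
      have c1 := mul_nonneg ha.le b1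
      linarith
    linarith
  · have e : SC a H - 2 / 3 * a * Sl0 a H * Sc2p a H = (7 / 4 * a ^ 2 + 4 * a) * XX a H +
      (a ^ 4 * (2 * H ^ 4 + 7 / 3 * H ^ 3 - 19 / 6 * H ^ 2 - 53 / 24 * H + 9 / 4) +
      a ^ 3 * (5 * H ^ 5 + 59 / 6 * H ^ 4 - 7 / 6 * H ^ 3 - 103 / 12 * H ^ 2 - 65 / 12 * H
        + 27 / 4) +
      a ^ 2 * (5 / 2 * H ^ 6 + 14 * H ^ 5 + 83 / 6 * H ^ 4 - 149 / 24 * H ^ 3 - 103 / 12 * H ^ 2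
        - 10 / 3 * H + 9 / 2) +
      a * (-1 * H ^ 7 + 9 / 2 * H ^ 6 + 69 / 4 * H ^ 5 + 9 * H ^ 4 - 37 / 12 * H ^ 3
        - 7 / 6 * H ^ 2 + 1 * H) +
      (-1 / 2 * H ^ 8 - 1 * H ^ 7 + 13 / 4 * H ^ 6 + 9 * H ^ 5 + 2 * H ^ 4 + 9 / 4 * H ^ 2)) := by
      unfold SC Sc1 Sd0 SL1 Sl0 Sc2p XX
      ring
    have b0 := fbl0 h0.le h1
    have b1 := fbl1 h0.le h1
    have b2 := fbl2 h0.le h1
    have b3 := fbl3 h0.le h1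
    have b4 := fbl4 h0.le h1
    have h3 : 0 ≤ SC a H - 2 / 3 * a * Sl0 a H * Sc2p a H := by
      rw [e]
      have c4 := mul_nonneg (pow_pos ha 4).le b4
      have c3 := mul_nonneg (pow_pos ha 3).le b3
      have c2 := mul_nonneg (pow_pos ha 2).le b2
      have c1 := mul_nonneg ha.le b1
      have cX : 0 ≤ (7 / 4 * a ^ 2 + 4 * a) * XX a H := by positivity
      linarith
    linarith

/-- the main algebraic fact -/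
theorem algE {a H : ℝ} (ha : 0 < a) (h0 : 0 < H) (h2 : H < 2) (hX : 0 ≤ XX a H)
    (hE : EE a H < 0) :
    ((a + H) * (a + H + 2) / 2 + (H + a + 1) * H + 4 * a + 3) * EE a H
      + (Sc2 a H * XX a H ^ 2 - Sc1 a H * XX a H + H * Sd0 a H)
      ≤ 1 / 2 * (a * (a + 1)) * EE a H := by
  have hL : 0 < SL1 a H := by unfold SL1; positivity
  have hXa := XX_le_of_EE_neg ha h0 h2 hE
  have hSC := SC_ge ha h0 h2 hX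
  obtain ⟨X, hXe⟩ : ∃ X, X = XX a H := ⟨_, rfl⟩
  obtain ⟨L, hLe⟩ : ∃ L, L = SL1 a H := ⟨_, rfl⟩
  obtain ⟨l, hle⟩ : ∃ l, l = Sl0 a H := ⟨_, rfl⟩
  obtain ⟨E, hEe⟩ : ∃ E, E = EE a H := ⟨_, rfl⟩
  have hEd : E = X * L - X ^ 2 / 2 - H * l := by rw [hEe, hXe, hLe, hle]; rfl
  have hc2p : 0 < Sc2p a H := by unfold Sc2p; positivity
  have hc1 : 0 < Sc1 a H := by unfold Sc1; positivity
  -- `X ≤ L`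
  have hXL : X ≤ L := by
    rw [hXe, hLe]
    have h1 : 0 ≤ H ^ 3 := by positivity
    have h3 : 0 ≤ a ^ 2 * H := by positivity
    unfold SL1
    nlinarith [mul_pos ha h0]
  rw [← hXe] at hX hXa
  rw [← hLe] at hL
  rw [← hEe] at hE
  -- `l ≥ 0`
  have hHl : 0 < H * l := by nlinarith [mul_nonneg hX (sub_nonneg.2 hXL)]
  have hl : 0 < l := pos_of_mul_pos_right hHl h0.le
  -- `X c2p ≤ -c1`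
  have hXc : X * Sc2p a H ≤ Sc1 a H := by
    refine (mul_le_mul_of_nonneg_right hXa hc2p.le).trans ?_
    have h3 : Sc1 a H - 2 / 3 * a * Sc2p a H =
      4 / 3 * a ^ 2 * H + 10 / 3 * a * H + 3 / 2 * H + 2 * a ^ 2 * H ^ 2 + 7 / 2 * a * H ^ 2
        + 3 * H ^ 2 + 4 * a * H ^ 3 + 9 / 2 * H ^ 3 := by
      unfold Sc1 Sc2p
      ring
    have h4 : 0 ≤ 4 / 3 * a ^ 2 * H + 10 / 3 * a * H + 3 / 2 * H + 2 * a ^ 2 * H ^ 2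
        + 7 / 2 * a * H ^ 2 + 3 * H ^ 2 + 4 * a * H ^ 3 + 9 / 2 * H ^ 3 := by positivity
    linarith
  have hc2 : Sc2 a H ≤ Sc2p a H := by
    unfold Sc2 Sc2p
    nlinarith [sq_nonneg a]
  have hSCe : SC a H = Sc1 a H * l - Sd0 a H * L := by rw [hle, hLe]; rfl
  rw [← hle] at hSC
  obtain ⟨c2, hc2e⟩ : ∃ c2, c2 = Sc2 a H := ⟨_, rfl⟩
  obtain ⟨c2p, hc2pe⟩ : ∃ c2p, c2p = Sc2p a H := ⟨_, rfl⟩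
  obtain ⟨c1, hc1e⟩ : ∃ c1, c1 = Sc1 a H := ⟨_, rfl⟩
  obtain ⟨d0, hd0e⟩ : ∃ d0, d0 = Sd0 a H := ⟨_, rfl⟩
  rw [← hc1e, ← hd0e] at hSCe
  rw [hSCe, ← hc2pe] at hSC
  rw [← hc2pe] at hc2p
  rw [← hc1e] at hc1
  rw [← hc2pe, ← hc1e] at hXc
  rw [← hc2e, ← hc2pe] at hc2
  rw [← hEe, ← hXe, ← hc2e, ← hc1e, ← hd0e]
  -- `T ≥ 0`
  have hT : 0 ≤ H * (c1 * l - d0 * L) - X ^ 2 * (c2 * L - c1 / 2) := by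
    have h3 : X ^ 2 * L * c2 ≤ X ^ 2 * L * c2p :=
      mul_le_mul_of_nonneg_left hc2 (by positivity)
    have h4 : (X * c2p) * (X * L) ≤ (X * c2p) * (H * l + X ^ 2 / 2) :=
      mul_le_mul_of_nonneg_left (by linarith) (by positivity)
    have h5 : X ^ 2 / 2 * (X * c2p) ≤ X ^ 2 / 2 * c1 :=
      mul_le_mul_of_nonneg_left hXc (by positivity)
    have h6 : X * (c2p * H * l) ≤ 2 / 3 * a * (c2p * H * l) :=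
      mul_le_mul_of_nonneg_right hXa (by positivity)
    have h7 : H * (2 / 3 * a * l * c2p) ≤ H * (c1 * l - d0 * L) :=
      mul_le_mul_of_nonneg_left hSC h0.le
    nlinarith
  -- `L (c2 X² - c1 X + H d0) ≤ - c1 E`
  have hQ : L * (c2 * X ^ 2 - c1 * X + H * d0) ≤ -(c1 * E) := by
    rw [hEd]
    nlinarith
  -- final
  have hfin : 0 ≤ (((a + H) * (a + H + 2) / 2 + (H + a + 1) * H + 4 * a + 3)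
      - 1 / 2 * (a * (a + 1))) * L - c1 := by
    rw [hLe, hc1e]
    have h3 : (((a + H) * (a + H + 2) / 2 + (H + a + 1) * H + 4 * a + 3)
      - 1 / 2 * (a * (a + 1))) * SL1 a H - Sc1 a H =
      (a * (2 * H + 9 / 2) + 3 / 2 * H ^ 2 + 2 * H + 3) * SL1 a H - Sc1 a H := by ring
    rw [h3]
    unfold SL1 Sc1
    have h4 : (a * (2 * H + 9 / 2) + 3 / 2 * H ^ 2 + 2 * H + 3) *
      (a * (a + 1) + (H + a + 1) * H ^ 2 + 2 * (a + 1) * H) -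
      (a ^ 2 + a + 2 * a ^ 2 * H + 4 * a * H + 3 / 2 * H + 2 * a ^ 2 * H ^ 2 + 5 * a * H ^ 2
        + 3 * H ^ 2 + 4 * a * H ^ 3 + 9 / 2 * H ^ 3) =
      2 * a ^ 3 * H + 9 / 2 * a ^ 3 + 2 * a ^ 2 * H ^ 3 + 8 * a ^ 2 * H ^ 2 + 11 * a ^ 2 * H
        + 13 / 2 * a ^ 2 + 7 / 2 * a * H ^ 4 + 15 / 2 * a * H ^ 3 + 12 * a * H ^ 2 + 13 * a * H
        + 2 * a + 3 / 2 * H ^ 5 + 7 / 2 * H ^ 4 + 7 / 2 * H ^ 3 + 4 * H ^ 2 + 9 / 2 * H := by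
      ring
    rw [h4]
    positivity
  have hmul : L * (((a + H) * (a + H + 2) / 2 + (H + a + 1) * H + 4 * a + 3) * E
      + (c2 * X ^ 2 - c1 * X + H * d0)) ≤ L * (1 / 2 * (a * (a + 1)) * E) := by
    nlinarith
  exact le_of_mul_le_mul_left hmul hL

end Vale.Agent.P254.H876
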