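import Vale.Agent.P254.H876.Schw

/-!
P254, sharp profile: the bounds `0 < w < ½ log (2 π e) - 1`.
-/

namespace Vale.Agent.P254.H876

open Real Set Filter Topology MeasureTheory

theorem msq_eq {a : ℝ} (ha : 0 < a) : m (cc a) ^ 2 = 1 / (1 + a) * (1 + 1 / eta a) := by
  have hv := v_pos (cc a)
  have hq := qv_pos (cc a)
  have hva := v_cc ha
  have e2 : eta a * (m (cc a) ^ 2 - v (cc a)) = v (cc a) := by
    unfold eta etc
    field_simp
  have het := eta_pos a
  have e3 : m (cc a) ^ 2 - v (cc a) = v (cc a) / eta a := by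
    field_simp
    linarith
  rw [hva] at e3
  have : m (cc a) ^ 2 = 1 / (1 + a) / eta a + 1 / (1 + a) := by linarith
  rw [this]
  ring

theorem wa_eq {a : ℝ} (ha : 0 < a) : wa a = -Real.log (a / (1 + a))
    + 1 / 2 * Real.log (1 + 1 / eta a) - 1 / (1 + a) * (1 + 1 / eta a) / 2 - 1 / (1 + a) / 2 := by
  have hva := v_cc ha
  have hm := m_pos (cc a)
  have hl := lam_pos (cc a)
  have het := eta_pos a
  have e1 : lam (cc a) = a / (1 + a) / m (cc a) := by
    have : v (cc a) = 1 - lam (cc a) * m (cc a) := rfl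
    rw [hva] at this
    rw [eq_div_iff hm.ne']
    field_simp at this ⊢
    linarith
  have e2 : Real.log (lam (cc a)) = Real.log (a / (1 + a)) - Real.log (m (cc a)) := by
    rw [e1, Real.log_div (by positivity) hm.ne']
  have e3 : Real.log (m (cc a)) = 1 / 2 * (Real.log (1 / (1 + a)) + Real.log (1 + 1 / eta a)) := by
    rw [← Real.log_mul (by positivity) (by positivity), ← msq_eq ha, Real.log_pow]
    push_cast
    ring
  unfold wa wc
  rw [e2, e3, hva, msq_eq ha]
  ring

theorem tendsto_inv_one_add : Tendsto (fun a : ℝ => 1 / (1 + a)) atTop (𝓝 0) := by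
  have h : Tendsto (fun a : ℝ => 1 + a) atTop atTop := tendsto_atTop_add_const_left _ _ tendsto_id
  refine (tendsto_inv_atTop_zero.comp h).congr fun a => ?_
  simp [one_div]

theorem tendsto_inv_eta : Tendsto (fun a : ℝ => 1 / eta a) atTop (𝓝 0) := by
  have h : Tendsto eta atTop atTop := by
    refine tendsto_atTop_mono' atTop ?_ (tendsto_id.atTop_div_const (two_pos (α := ℝ)))
    filter_upwards [eventually_gt_atTop 0] with a ha
    have := HH_pos a ha
    unfold HH at this
    simp only [id_eq]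
    linarith
  refine (tendsto_inv_atTop_zero.comp h).congr fun a => ?_
  simp [one_div]

theorem tendsto_wa_top : Tendsto wa atTop (𝓝 0) := by
  have h1 : Tendsto (fun a : ℝ => a / (1 + a)) atTop (𝓝 1) := by
    have h := tendsto_inv_one_add.const_sub 1
    rw [sub_zero] at h
    refine h.congr' ?_
    filter_upwards [eventually_gt_atTop 0] with a ha
    field_simp
    ring
  have h2 : Tendsto (fun a : ℝ => Real.log (a / (1 + a))) atTop (𝓝 0) := by
    have := (Real.continuousAt_log one_ne_zero).tendsto.comp h1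
    rw [Real.log_one] at this
    exact this
  have h3 : Tendsto (fun a : ℝ => 1 + 1 / eta a) atTop (𝓝 1) := by
    have := tendsto_inv_eta.const_add 1
    rw [add_zero] at this
    exact this
  have h4 : Tendsto (fun a : ℝ => Real.log (1 + 1 / eta a)) atTop (𝓝 0) := by
    have := (Real.continuousAt_log one_ne_zero).tendsto.comp h3
    rw [Real.log_one] at this
    exact this
  have h5 := (((h2.neg).add (h4.const_mul (1 / 2))).sub
    ((tendsto_inv_one_add.mul h3).div_const 2)).sub (tendsto_inv_one_add.div_const 2)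
  have e : -0 + 1 / 2 * 0 - 0 * 1 / 2 - 0 / 2 = (0 : ℝ) := by norm_num
  rw [e] at h5
  refine h5.congr' ?_
  filter_upwards [eventually_gt_atTop 0] with a ha
  rw [wa_eq ha]

theorem wc_eq (c : ℝ) : wc c = Real.log (Ph c) - c * lam c - lam c ^ 2 / 2 - v c / 2
    - Real.log (v c) / 2 := by
  unfold wc
  have h1 : Real.log (lam c) = -(1 / 2) * c ^ 2 - Real.log (Ph c) := by
    unfold lam
    rw [Real.log_div (ph_pos c).ne' (Ph_pos c).ne']
    unfold ph
    rw [Real.log_exp]
  rw [h1, m_eq]
  ring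

theorem tendsto_wc_top : Tendsto wc atTop (𝓝 (1 / 2 * Real.log (2 * π) - 1 / 2)) := by
  have hpi : (0 : ℝ) < 2 * π := by positivity
  have h1 : Tendsto (fun c => Real.log (Ph c)) atTop (𝓝 (Real.log (√(2 * π)))) :=
    (Real.continuousAt_log (by positivity)).tendsto.comp tendsto_Ph_top
  have h2 : Tendsto (fun c => Real.log (v c)) atTop (𝓝 0) := by
    have := (Real.continuousAt_log one_ne_zero).tendsto.comp tendsto_v_top
    rw [Real.log_one] at this
    exact this
  have h := (((h1.sub tendsto_mul_lam_top).sub ((tendsto_lam_top.pow 2).div_const 2)).sub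
    (tendsto_v_top.div_const 2)).sub (h2.div_const 2)
  have e : Real.log (√(2 * π)) - 0 - 0 ^ 2 / 2 - 1 / 2 - 0 / 2
      = 1 / 2 * Real.log (2 * π) - 1 / 2 := by
    rw [Real.log_sqrt hpi.le]
    ring
  rw [e] at h
  refine h.congr fun c => ?_
  rw [wc_eq]

theorem tendsto_wa_zero :
    Tendsto wa (𝓝[>] 0) (𝓝 (1 / 2 * Real.log (2 * π) - 1 / 2)) :=
  tendsto_wc_top.comp tendsto_cc_zero

theorem strictAntiOn_wa : StrictAntiOn wa (Ioi 0) := by
  refine strictAntiOn_of_deriv_neg (convex_Ioi 0) ?_ ?_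
  · intro x hx
    exact (hasDerivAt_wa hx).continuousAt.continuousWithinAt
  · intro x hx
    rw [interior_Ioi] at hx
    have hx0 : 0 < x := hx
    rw [(hasDerivAt_wa hx0).deriv]
    have h := HH_pos x hx0
    have : 0 < (2 * eta x - x) / 2 / (1 + x) ^ 2 := by
      unfold HH at h
      positivity
    linarith

theorem wa_pos {a : ℝ} (ha : 0 < a) : 0 < wa a := by
  have h1 : wa (a + 1) < wa a :=
    strictAntiOn_wa (show a ∈ Ioi (0 : ℝ) from ha)
      (show a + 1 ∈ Ioi (0 : ℝ) from by simp only [mem_Ioi]; linarith) (by linarith)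
  have h2 : 0 ≤ wa (a + 1) := by
    refine le_of_tendsto tendsto_wa_top ?_
    filter_upwards [eventually_ge_atTop (a + 1)] with t ht
    exact strictAntiOn_wa.antitoneOn (show a + 1 ∈ Ioi (0 : ℝ) from by
      simp only [mem_Ioi]; linarith) (show t ∈ Ioi (0 : ℝ) from by
      simp only [mem_Ioi]; linarith) ht
  linarith

theorem wa_lt {a : ℝ} (ha : 0 < a) : wa a < 1 / 2 * Real.log (2 * π) - 1 / 2 := by
  have h1 : wa a < wa (a / 2) :=
    strictAntiOn_wa (show a / 2 ∈ Ioi (0 : ℝ) from by simp only [mem_Ioi]; linarith)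
      (show a ∈ Ioi (0 : ℝ) from ha) (by linarith)
  have h2 : wa (a / 2) ≤ 1 / 2 * Real.log (2 * π) - 1 / 2 := by
    refine ge_of_tendsto tendsto_wa_zero ?_
    filter_upwards [Ioo_mem_nhdsGT (show (0 : ℝ) < a / 2 by linarith)] with t ht
    exact strictAntiOn_wa.antitoneOn (show t ∈ Ioi (0 : ℝ) from ht.1)
      (show a / 2 ∈ Ioi (0 : ℝ) from by simp only [mem_Ioi]; linarith) ht.2.le
  linarith

end Vale.Agent.P254.H876
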